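import Mathlib

set_option linter.all false

open Filter Metric Set Topology

namespace Vale.Agent.P267.H178

/-- A bounded operator on a nonzero complex Banach space has approximate eigenvectors. -/
theorem exists_approx_eigen {V : Type*} [NormedAddCommGroup V] [NormedSpace ℂ V] [CompleteSpace V]
    [Nontrivial V] (T : V →L[ℂ] V) :
    ∃ ζ : ℂ, ∀ ε > 0, ∃ s : V, ‖s‖ = 1 ∧ ‖T s - ζ • s‖ ≤ ε := by
  obtain ⟨ζ, hζ, hmax⟩ : ∃ ζ ∈ spectrum ℂ T, ∀ ξ ∈ spectrum ℂ T, ‖ξ‖ ≤ ‖ζ‖ := by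
    obtain ⟨ζ, hζ, h⟩ := (spectrum.isCompact (𝕜 := ℂ) T).exists_isMaxOn
      (spectrum.nonempty T) continuous_norm.continuousOn
    exact ⟨ζ, hζ, fun ξ hξ => h hξ⟩
  refine ⟨ζ, fun ε hε => ?_⟩
  by_contra hcon
  push Not at hcon
  -- `T - ζ` is bounded below
  have hb : ∀ s : V, ε * ‖s‖ ≤ ‖T s - ζ • s‖ := by
    intro s
    by_cases hs : s = 0
    · simp [hs]
    have hs' : 0 < ‖s‖ := norm_pos_iff.2 hs
    have h1 := hcon (((‖s‖ : ℂ)⁻¹) • s) (by
      rw [norm_smul, norm_inv, Complex.norm_real, norm_norm, inv_mul_cancel₀ hs'.ne'])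
    have h2 : T (((‖s‖ : ℂ)⁻¹) • s) - ζ • (((‖s‖ : ℂ)⁻¹) • s) = ((‖s‖ : ℂ)⁻¹) • (T s - ζ • s) := by
      rw [map_smul, smul_sub, smul_comm]
    rw [h2, norm_smul, norm_inv, Complex.norm_real, norm_norm] at h1
    have h3 : ε < ‖T s - ζ • s‖ / ‖s‖ := by
      rw [div_eq_inv_mul]; exact h1
    exact ((lt_div_iff₀ hs').1 h3).le
  -- a nearby point outside of the spectrum
  obtain ⟨ξ, hξ1, hξ2⟩ : ∃ ξ : ℂ, ‖ζ‖ < ‖ξ‖ ∧ ‖ξ - ζ‖ ≤ ε / 4 := by
    by_cases h0 : ζ = 0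
    · refine ⟨((ε / 4 : ℝ) : ℂ), ?_, ?_⟩
      · rw [h0, norm_zero, Complex.norm_real]
        have : 0 < ε / 4 := by positivity
        simpa using this.ne'
      · rw [h0, sub_zero, Complex.norm_real]
        exact le_of_eq (Real.norm_of_nonneg (by positivity))
    · have hζ0 : 0 < ‖ζ‖ := norm_pos_iff.2 h0
      refine ⟨ζ + ((ε / 4 / ‖ζ‖ : ℝ) : ℂ) * ζ, ?_, ?_⟩
      · have h1 : ζ + ((ε / 4 / ‖ζ‖ : ℝ) : ℂ) * ζ = ((1 + ε / 4 / ‖ζ‖ : ℝ) : ℂ) * ζ := by
          push_cast; ring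
        rw [h1, norm_mul, Complex.norm_real, Real.norm_of_nonneg (by positivity)]
        have h2 : 0 < ε / 4 / ‖ζ‖ := by positivity
        nlinarith
      · rw [add_sub_cancel_left, norm_mul, Complex.norm_real, Real.norm_of_nonneg (by positivity)]
        exact le_of_eq (by field_simp)
  have hξ : ξ ∉ spectrum ℂ T := fun h => absurd (hmax ξ h) (not_le.2 hξ1)
  rw [spectrum.notMem_iff] at hξ
  obtain ⟨u, hu⟩ := hξ
  have hinv : ‖((u⁻¹ : (V →L[ℂ] V)ˣ) : V →L[ℂ] V)‖ ≤ 2 / ε := by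
    refine ContinuousLinearMap.opNorm_le_bound _ (by positivity) fun y => ?_
    set x := ((u⁻¹ : (V →L[ℂ] V)ˣ) : V →L[ℂ] V) y with hx
    have h1 : (u : V →L[ℂ] V) x = y := by
      rw [hx, ← ContinuousLinearMap.mul_apply, Units.mul_inv, ContinuousLinearMap.one_apply]
    have h2 : ξ • x - T x = y := by
      rw [← h1, hu, ContinuousLinearMap.sub_apply, Algebra.algebraMap_eq_smul_one,
        ContinuousLinearMap.smul_apply, ContinuousLinearMap.one_apply]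
    have h3 : T x - ζ • x = -y + (ξ - ζ) • x := by
      rw [← h2, sub_smul]; abel
    have h4 := hb x
    rw [h3] at h4
    have h5 := norm_add_le (-y) ((ξ - ζ) • x)
    rw [norm_neg, norm_smul] at h5
    have h6 : ‖ξ - ζ‖ * ‖x‖ ≤ ε / 4 * ‖x‖ := mul_le_mul_of_nonneg_right hξ2 (norm_nonneg _)
    have h7 : ε / 2 * ‖x‖ ≤ ‖y‖ := by nlinarith [norm_nonneg x]
    rw [div_mul_eq_mul_div, le_div_iff₀ hε]
    nlinarith
  -- then `ζ - T` is invertible
  apply hζ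
  have hne : (0 : ℝ) < ‖((u⁻¹ : (V →L[ℂ] V)ˣ) : V →L[ℂ] V)‖ := by
    rw [norm_pos_iff]; exact Units.ne_zero _
  have hnear : ‖(algebraMap ℂ (V →L[ℂ] V) ζ - T) - (u : V →L[ℂ] V)‖
      < ‖((u⁻¹ : (V →L[ℂ] V)ˣ) : V →L[ℂ] V)‖⁻¹ := by
    rw [hu]
    have h1 : (algebraMap ℂ (V →L[ℂ] V) ζ - T) - (algebraMap ℂ (V →L[ℂ] V) ξ - T)
        = algebraMap ℂ (V →L[ℂ] V) (ζ - ξ) := by
      rw [map_sub]; abel
    rw [h1, norm_algebraMap', ← norm_neg, neg_sub]
    have h2 : (2 / ε)⁻¹ ≤ ‖((u⁻¹ : (V →L[ℂ] V)ˣ) : V →L[ℂ] V)‖⁻¹ := inv_anti₀ hne hinv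
    rw [inv_div] at h2
    linarith
  exact ⟨Units.ofNearby u _ hnear, rfl⟩

/-- **Abstract Floquet principle.**  `T` is an automorphism of a complex vector space `A`, `ev q`
is a family of functionals.  Assume separation and the Montel property.  If `A` has a nonzero
element with exponentially bounded orbit, then `T` has an eigenvector. -/
theorem exists_eigen {A : Type*} [AddCommGroup A] [Module ℂ A] (T : A ≃ₗ[ℂ] A)
    {Q : Type*} (ev : Q → A →ₗ[ℂ] ℂ)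
    (hsep : ∀ s : A, (∀ (k : ℤ) (q : Q), ev q ((T ^ k) s) = 0) → s = 0)
    (hmontel : ∀ (σ : ℕ → A) (B : ℤ → ℝ), (∀ n k q, ‖ev q ((T ^ k) (σ n))‖ ≤ B k) →
      ∃ τ : A, ∀ (k : ℤ), ∀ ε > 0, ∀ᶠ n in (hyperfilter ℕ : Filter ℕ),
        ∀ q, ‖ev q ((T ^ k) (σ n - τ))‖ ≤ ε)
    {C D : ℝ} (hC : 1 ≤ C) {s : A} (hs : s ≠ 0)
    (hgrow : ∀ (k : ℤ) (q : Q), ‖ev q ((T ^ k) s)‖ ≤ D * C ^ k.natAbs) :
    ∃ (l : ℂ) (τ : A), l ≠ 0 ∧ τ ≠ 0 ∧ T τ = l • τ := by
  classical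
  have hC0 : 0 < C := lt_of_lt_of_le one_pos hC
  have hw : ∀ k : ℤ, 0 < C ^ k.natAbs := fun k => pow_pos hC0 _
  -- the space of tempered elements
  let V₀ : Submodule ℂ A :=
    { carrier := {a | ∃ R : ℝ, ∀ (k : ℤ) (q : Q), ‖ev q ((T ^ k) a)‖ ≤ R * C ^ k.natAbs}
      zero_mem' := ⟨0, fun k q => by simp⟩
      add_mem' := by
        rintro a b ⟨R, hR⟩ ⟨R', hR'⟩
        refine ⟨R + R', fun k q => ?_⟩
        rw [map_add, map_add, add_mul]
        exact (norm_add_le _ _).trans (add_le_add (hR k q) (hR' k q))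
      smul_mem' := by
        rintro c a ⟨R, hR⟩
        refine ⟨‖c‖ * R, fun k q => ?_⟩
        rw [map_smul, map_smul, smul_eq_mul, norm_mul, mul_assoc]
        exact mul_le_mul_of_nonneg_left (hR k q) (norm_nonneg _) }
  have hV₀ : ∀ a : A, a ∈ V₀ ↔ ∃ R : ℝ, ∀ (k : ℤ) (q : Q), ‖ev q ((T ^ k) a)‖ ≤ R * C ^ k.natAbs :=
    fun a => Iff.rfl
  -- the embedding in `ℓ^∞`
  let j : V₀ → (ℤ × Q → ℂ) := fun a kq => ((C ^ kq.1.natAbs : ℝ) : ℂ)⁻¹ * ev kq.2 ((T ^ kq.1) (a : A))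
  have hjnorm : ∀ (a : V₀) (kq : ℤ × Q), ‖j a kq‖ =
      (C ^ kq.1.natAbs)⁻¹ * ‖ev kq.2 ((T ^ kq.1) (a : A))‖ := by
    intro a kq
    simp only [j, norm_mul, norm_inv, Complex.norm_real, Real.norm_of_nonneg (hw kq.1).le]
  have hjmem : ∀ a : V₀, Memℓp (E := fun _ : ℤ × Q => ℂ) (j a) ⊤ := by
    intro a
    obtain ⟨R, hR⟩ := a.2
    rw [memℓp_infty_iff]
    refine ⟨R, ?_⟩
    rintro _ ⟨kq, rfl⟩
    simp only
    rw [hjnorm, inv_mul_le_iff₀ (hw kq.1), mul_comm]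
    exact hR _ _
  let J : V₀ →ₗ[ℂ] lp (fun _ : ℤ × Q => ℂ) ⊤ :=
    { toFun := fun a => ⟨j a, hjmem a⟩
      map_add' := by
        intro a b
        ext kq
        simp only [j, lp.coeFn_add, Pi.add_apply, Submodule.coe_add, map_add, mul_add]
      map_smul' := by
        intro c a
        ext kq
        simp only [j, lp.coeFn_smul, Pi.smul_apply, Submodule.coe_smul, map_smul, smul_eq_mul,
          RingHom.id_apply]
        ring }
  have hJapp : ∀ (a : V₀) (kq : ℤ × Q), (J a : ℤ × Q → ℂ) kq = j a kq := fun _ _ => rfl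
  have hJinj : Function.Injective J := by
    rw [injective_iff_map_eq_zero]
    intro a ha
    have : (a : A) = 0 := by
      apply hsep
      intro k q
      have h1 : (J a : ℤ × Q → ℂ) (k, q) = 0 := by rw [ha]; rfl
      rw [hJapp] at h1
      have h2 : ‖j a (k, q)‖ = 0 := by rw [h1, norm_zero]
      rw [hjnorm] at h2
      rcases mul_eq_zero.1 h2 with h3 | h3
      · exact absurd h3 (inv_pos.2 (hw k)).ne'
      · exact norm_eq_zero.1 h3
    exact Subtype.ext this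
  letI nV : NormedAddCommGroup V₀ := NormedAddCommGroup.induced V₀ _ J.toAddMonoidHom hJinj
  letI sV : NormedSpace ℂ V₀ := NormedSpace.induced ℂ V₀ _ J
  have hnorm : ∀ a : V₀, ‖a‖ = ‖J a‖ := fun a => rfl
  have hle : ∀ (a : V₀) (R : ℝ), 0 ≤ R → (‖a‖ ≤ R ↔
      ∀ (k : ℤ) (q : Q), ‖ev q ((T ^ k) (a : A))‖ ≤ R * C ^ k.natAbs) := by
    intro a R hR
    rw [hnorm]
    constructor
    · intro h k q
      have h1 := (lp.norm_apply_le_norm (by simp) (J a) (k, q)).trans h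
      rw [hJapp, hjnorm, inv_mul_le_iff₀ (hw k), mul_comm] at h1
      exact h1
    · intro h
      refine lp.norm_le_of_forall_le hR fun kq => ?_
      rw [hJapp, hjnorm, inv_mul_le_iff₀ (hw kq.1), mul_comm]
      exact h _ _
  have hpw : ∀ i k : ℤ, C ^ (i + k).natAbs ≤ C ^ i.natAbs * C ^ k.natAbs := by
    intro i k
    rw [← pow_add]
    exact pow_le_pow_right₀ hC (Int.natAbs_add_le i k)
  have happ : ∀ (a : V₀) (k : ℤ) (q : Q), ‖ev q ((T ^ k) (a : A))‖ ≤ ‖a‖ * C ^ k.natAbs :=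
    fun a k q => (hle a ‖a‖ (norm_nonneg _)).1 le_rfl k q
  -- a criterion for convergence
  have hUne : (hyperfilter ℕ : Filter ℕ) ≤ atTop := by
    rw [← Nat.cofinite_eq_atTop]; exact hyperfilter_le_cofinite
  have hlim : ∀ (x : ℝ) (k : ℤ) (q : Q) (b τ : A) (σ : ℕ → A),
      (∀ ε > 0, ∀ᶠ n in (hyperfilter ℕ : Filter ℕ), ‖ev q ((T ^ k) (σ n - τ))‖ ≤ ε) →
      (∀ᶠ n in (hyperfilter ℕ : Filter ℕ), ‖ev q ((T ^ k) (b - σ n))‖ ≤ x) →
      ‖ev q ((T ^ k) (b - τ))‖ ≤ x := by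
    intro x k q b τ σ h1 h2
    refine le_of_forall_pos_le_add fun ε hε => ?_
    obtain ⟨n, hn1, hn2⟩ := ((h1 ε hε).and h2).exists
    have h3 : b - τ = (b - σ n) + (σ n - τ) := by abel
    rw [h3, map_add, map_add]
    exact (norm_add_le _ _).trans (add_le_add hn2 hn1)
  haveI hcomplete : CompleteSpace V₀ := by
    refine Metric.complete_of_cauchySeq_tendsto fun u hu => ?_
    obtain ⟨R, hR⟩ := hu.norm_bddAbove
    have hR' : ∀ n, ‖u n‖ ≤ R := fun n => hR ⟨n, rfl⟩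
    obtain ⟨τ, hτ⟩ := hmontel (fun n => (u n : A)) (fun k => R * C ^ k.natAbs) (by
      intro n k q
      exact (happ (u n) k q).trans (mul_le_mul_of_nonneg_right (hR' n) (hw k).le))
    have hτmem : τ ∈ V₀ := by
      refine ⟨R, fun k q => ?_⟩
      have h := hlim (R * C ^ k.natAbs) k q 0 τ (fun n => (u n : A))
        (fun ε hε => (hτ k ε hε).mono fun n hn => hn q)
        (Eventually.of_forall fun n => by
          rw [zero_sub, map_neg, map_neg, norm_neg]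
          exact (happ (u n) k q).trans (mul_le_mul_of_nonneg_right (hR' n) (hw k).le))
      rwa [zero_sub, map_neg, map_neg, norm_neg] at h
    refine ⟨⟨τ, hτmem⟩, ?_⟩
    rw [Metric.tendsto_atTop]
    intro ε hε
    obtain ⟨N, hN⟩ := Metric.cauchySeq_iff.1 hu (ε / 2) (by positivity)
    refine ⟨N, fun n hn => ?_⟩
    rw [dist_eq_norm]
    refine lt_of_le_of_lt ((hle _ (ε / 2) (by positivity)).2 fun k q => ?_) (half_lt_self hε)
    rw [Submodule.coe_sub]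
    refine hlim _ k q (u n : A) τ (fun m => (u m : A))
      (fun ε hε => (hτ k ε hε).mono fun n hn => hn q) ?_
    have h1 : ∀ᶠ m in (hyperfilter ℕ : Filter ℕ), N ≤ m := hUne (eventually_ge_atTop N)
    filter_upwards [h1] with m hm
    have h2 := hN n hn m hm
    rw [dist_eq_norm] at h2
    have h3 := happ (u n - u m) k q
    rw [Submodule.coe_sub] at h3
    exact h3.trans (mul_le_mul_of_nonneg_right h2.le (hw k).le)
  have hTmem : ∀ a : V₀, T (a : A) ∈ V₀ := by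
    intro a
    refine ⟨‖a‖ * C, fun k q => ?_⟩
    have h1 : (T ^ k) (T (a : A)) = (T ^ (k + 1)) (a : A) := by
      rw [zpow_add, zpow_one]; rfl
    rw [h1]
    refine (happ a (k + 1) q).trans ?_
    rw [mul_assoc]
    refine mul_le_mul_of_nonneg_left ?_ (norm_nonneg _)
    have := hpw 1 k
    rw [add_comm]
    simpa using this
  let T₁ : V₀ →ₗ[ℂ] V₀ :=
    { toFun := fun a => ⟨T (a : A), hTmem a⟩
      map_add' := by
        intro a b
        ext
        simp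
      map_smul' := by
        intro c a
        ext
        simp }
  let T₀ : V₀ →L[ℂ] V₀ := T₁.mkContinuous C (by
    intro a
    rw [hle _ _ (by positivity)]
    intro k q
    have h1 : (T ^ k) ((T₁ a : V₀) : A) = (T ^ (k + 1)) (a : A) := by
      rw [zpow_add, zpow_one]; rfl
    rw [h1]
    refine (happ a (k + 1) q).trans ?_
    have h2 := hpw 1 k
    rw [add_comm k 1]
    have h3 : C ^ (1 + k).natAbs ≤ C * C ^ k.natAbs := by simpa using h2
    calc ‖a‖ * C ^ (1 + k).natAbs ≤ ‖a‖ * (C * C ^ k.natAbs) :=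
          mul_le_mul_of_nonneg_left h3 (norm_nonneg _)
      _ = C * ‖a‖ * C ^ k.natAbs := by ring)
  have hT₀ : ∀ a : V₀, ((T₀ a : V₀) : A) = T (a : A) := fun a => rfl
  haveI : Nontrivial V₀ := by
    refine ⟨⟨⟨s, D, hgrow⟩, 0, ?_⟩⟩
    intro h
    exact hs (congrArg Subtype.val h)
  obtain ⟨ζ, hζ⟩ := exists_approx_eigen T₀
  have hz : ∀ n : ℕ, ∃ a : V₀, ‖a‖ = 1 ∧ ‖T₀ a - ζ • a‖ ≤ 1 / ((n : ℝ) + 1) :=
    fun n => hζ _ (by positivity)
  choose a ha1 ha2 using hz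
  have hk : ∀ n, ∃ (k : ℤ) (q : Q), 1 / 2 * C ^ k.natAbs < ‖ev q ((T ^ k) (a n : A))‖ := by
    intro n
    by_contra hcon
    push Not at hcon
    have := (hle (a n) (1 / 2) (by norm_num)).2 hcon
    rw [ha1] at this
    norm_num at this
  choose κ q₀ hκ using hk
  let t : ℕ → A := fun n => ((C ^ (κ n).natAbs : ℝ) : ℂ)⁻¹ • (T ^ (κ n)) (a n : A)
  have hev : ∀ (n : ℕ) (i : ℤ) (q : Q) (b : A),
      ‖ev q ((T ^ i) (((C ^ (κ n).natAbs : ℝ) : ℂ)⁻¹ • (T ^ (κ n)) b))‖ =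
        (C ^ (κ n).natAbs)⁻¹ * ‖ev q ((T ^ (i + κ n)) b)‖ := by
    intro n i q b
    rw [map_smul, map_smul, norm_smul, norm_inv, Complex.norm_real, Real.norm_of_nonneg (hw _).le,
      zpow_add]
    rfl
  have hbd : ∀ (n : ℕ) (i : ℤ) (q : Q) (b : V₀),
      (C ^ (κ n).natAbs)⁻¹ * ‖ev q ((T ^ (i + κ n)) (b : A))‖ ≤ ‖b‖ * C ^ i.natAbs := by
    intro n i q b
    rw [inv_mul_le_iff₀ (hw _)]
    refine (happ b (i + κ n) q).trans ?_
    calc ‖b‖ * C ^ (i + κ n).natAbs ≤ ‖b‖ * (C ^ i.natAbs * C ^ (κ n).natAbs) :=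
          mul_le_mul_of_nonneg_left (hpw _ _) (norm_nonneg _)
      _ = C ^ (κ n).natAbs * (‖b‖ * C ^ i.natAbs) := by ring
  obtain ⟨τ, hτ⟩ := hmontel t (fun i => C ^ i.natAbs) (by
    intro n i q
    rw [hev]
    refine (hbd n i q (a n)).trans ?_
    rw [ha1, one_mul])
  have hτ0 : τ ≠ 0 := by
    intro h0
    obtain ⟨n, hn⟩ := (hτ 0 (1 / 4) (by norm_num)).exists
    have h1 := hn (q₀ n)
    rw [h0, sub_zero, hev, zero_add, inv_mul_le_iff₀ (hw _)] at h1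
    have h2 := hκ n
    have h3 := hw (κ n)
    linarith
  have heig : T τ = ζ • τ := by
    rw [← sub_eq_zero]
    apply hsep
    intro k q
    rw [← norm_le_zero_iff]
    refine le_of_forall_pos_le_add fun ε hε => ?_
    rw [zero_add]
    -- choose a good index
    have e1 := hτ (k + 1) (ε / 3) (by positivity)
    have e2 := hτ k (ε / (3 * (‖ζ‖ + 1))) (by positivity)
    have e3 : ∀ᶠ n : ℕ in (hyperfilter ℕ : Filter ℕ), 1 / ((n : ℝ) + 1) * C ^ k.natAbs ≤ ε / 3 := by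
      apply hUne
      have h4 : Tendsto (fun n : ℕ => 1 / ((n : ℝ) + 1) * C ^ k.natAbs) atTop (𝓝 0) := by
        have := (tendsto_one_div_add_atTop_nhds_zero_nat (𝕜 := ℝ)).mul_const (C ^ k.natAbs)
        simpa using this
      exact (h4.eventually (gt_mem_nhds (show 0 < ε / 3 by positivity))).mono fun n hn => hn.le
    obtain ⟨n, hn1, hn2, hn3⟩ := (e1.and (e2.and e3)).exists
    have h5 : T τ - ζ • τ = -(T (t n - τ)) + ζ • (t n - τ) + (T (t n) - ζ • t n) := by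
      rw [map_sub, smul_sub]; abel
    have h6 : (T ^ k) (T (t n - τ)) = (T ^ (k + 1)) (t n - τ) := by
      rw [zpow_add, zpow_one]; rfl
    have h7 : T (t n) - ζ • t n =
        ((C ^ (κ n).natAbs : ℝ) : ℂ)⁻¹ • (T ^ (κ n)) ((T₀ (a n) - ζ • a n : V₀) : A) := by
      have h8 : T ((T ^ (κ n)) (a n : A)) = (T ^ (κ n)) (T (a n : A)) := by
        have h9 : T ((T ^ (κ n)) (a n : A)) = (T ^ (1 + κ n)) (a n : A) := by
          rw [zpow_add, zpow_one]; rfl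
        have h10 : (T ^ (κ n)) (T (a n : A)) = (T ^ (κ n + 1)) (a n : A) := by
          rw [zpow_add, zpow_one]; rfl
        rw [h9, h10, add_comm]
      simp only [t]
      rw [map_smul, h8, Submodule.coe_sub, Submodule.coe_smul, hT₀, map_sub, map_smul, smul_sub,
        smul_comm ζ]
    have b1 : ‖ev q ((T ^ k) (T (t n - τ)))‖ ≤ ε / 3 := by rw [h6]; exact hn1 q
    have b2 : ‖ev q ((T ^ k) (ζ • (t n - τ)))‖ ≤ ε / 3 := by
      rw [map_smul, map_smul, norm_smul]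
      have := hn2 q
      calc ‖ζ‖ * ‖ev q ((T ^ k) (t n - τ))‖ ≤ (‖ζ‖ + 1) * (ε / (3 * (‖ζ‖ + 1))) :=
            mul_le_mul (by linarith [norm_nonneg ζ]) this (norm_nonneg _) (by positivity)
        _ = ε / 3 := by
            have : ‖ζ‖ + 1 ≠ 0 := by positivity
            field_simp
    have b3 : ‖ev q ((T ^ k) (T (t n) - ζ • t n))‖ ≤ ε / 3 := by
      rw [h7, hev]
      refine (hbd n k q _).trans (le_trans ?_ hn3)
      exact mul_le_mul_of_nonneg_right (ha2 n) (hw k).le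
    rw [h5, map_add, map_add, map_add, map_add, map_neg, map_neg]
    have n1 := norm_add_le (-(ev q) ((T ^ k) (T (t n - τ))) + (ev q) ((T ^ k) (ζ • (t n - τ))))
      ((ev q) ((T ^ k) (T (t n) - ζ • t n)))
    have n2 := norm_add_le (-(ev q) ((T ^ k) (T (t n - τ)))) ((ev q) ((T ^ k) (ζ • (t n - τ))))
    rw [norm_neg] at n2
    linarith
  refine ⟨ζ, τ, ?_, hτ0, heig⟩
  rintro rfl
  rw [zero_smul] at heig
  exact hτ0 (by simpa using heig)

end Vale.Agent.P267.H178
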