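import Mathlib

/-!
# Pluricanonical tensors on complex manifolds

`M` is a complex manifold modelled on the finite-dimensional complex space `E`.  Mathlib identifies
each tangent space `T_x M` with `E` (through the preferred chart at `x`); accordingly an element of
the `m`-th power of the canonical line `Λ^n T_x^* M` is a complex number, and a section of `K_M^m`
is a function `M → ℂ`.  Pulling such a section back under a holomorphic map `f` multiplies it with
the `m`-th power of the Jacobian determinant of `f`.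
-/

set_option linter.all false

open Filter Metric Set Topology
open scoped Manifold ContDiff

namespace Vale.Agent.P267.H178

section defs
variable (E : Type*) [NormedAddCommGroup E] [NormedSpace ℂ E]
variable {M : Type*} [TopologicalSpace M] [ChartedSpace E M]
variable {N : Type*} [TopologicalSpace N] [ChartedSpace E N]

/-- The complex Jacobian determinant of a map between complex manifolds. -/
noncomputable def jac (f : N → M) (x : N) : ℂ :=
  ContinuousLinearMap.det (mfderiv 𝓘(ℂ, E) 𝓘(ℂ, E) f x : E →L[ℂ] E)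

/-- The pull-back under `f` of a section of the `m`-th power of the canonical bundle. -/
noncomputable def pull (m : ℤ) (f : N → M) (s : M → ℂ) : N → ℂ :=
  fun x => jac E f x ^ m * s (f x)

/-- `s` is holomorphic on `W`, as a section of `K_M^m`: in every holomorphic chart `e` the
coefficient of `s`, i.e. the pull-back of `s` under the parametrisation `e.symm`, is holomorphic. -/
def HolSec (m : ℤ) (W : Set M) (s : M → ℂ) : Prop :=
  ∀ e ∈ IsManifold.maximalAtlas 𝓘(ℂ, E) ω M,
    DifferentiableOn ℂ (pull E m e.symm s) (e.target ∩ e.symm ⁻¹' W)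

end defs

variable {E : Type*} [NormedAddCommGroup E] [NormedSpace ℂ E]
variable {M : Type*} [TopologicalSpace M] [ChartedSpace E M]
variable {N : Type*} [TopologicalSpace N] [ChartedSpace E N]
variable {P : Type*} [TopologicalSpace P] [ChartedSpace E P]

theorem jac_comp {f : N → M} {h : P → N} {x : P}
    (hf : MDifferentiableAt 𝓘(ℂ, E) 𝓘(ℂ, E) f (h x)) (hh : MDifferentiableAt 𝓘(ℂ, E) 𝓘(ℂ, E) h x) :
    jac E (f ∘ h) x = jac E f (h x) * jac E h x := by
  unfold jac
  rw [mfderiv_comp x hf hh]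
  exact LinearMap.det_comp _ _

theorem jac_id (x : M) : jac E (id : M → M) x = 1 := by
  unfold jac
  rw [mfderiv_id]
  exact LinearMap.det_id

theorem jac_congr {f f' : N → M} {x : N} (h : f =ᶠ[𝓝 x] f') : jac E f x = jac E f' x := by
  unfold jac
  rw [h.mfderiv_eq]

theorem pull_comp (m : ℤ) {f : N → M} {h : P → N} {x : P}
    (hf : MDifferentiableAt 𝓘(ℂ, E) 𝓘(ℂ, E) f (h x)) (hh : MDifferentiableAt 𝓘(ℂ, E) 𝓘(ℂ, E) h x)
    (s : M → ℂ) : pull E m (f ∘ h) s x = pull E m h (pull E m f s) x := by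
  simp only [pull, Function.comp, ← mul_assoc]
  rw [jac_comp hf hh, mul_zpow, mul_comm (jac E f (h x) ^ m)]

theorem pull_id (m : ℤ) (s : M → ℂ) : pull E m id s = s := by
  ext x
  simp [pull, jac_id]

theorem pull_congr (m : ℤ) {f f' : N → M} {x : N} (h : f =ᶠ[𝓝 x] f') (s : M → ℂ) :
    pull E m f s x = pull E m f' s x := by
  simp only [pull]
  rw [jac_congr h, h.eq_of_nhds]

theorem pull_add (m : ℤ) (f : N → M) (s t : M → ℂ) :
    pull E m f (s + t) = pull E m f s + pull E m f t := by
  ext x; simp [pull, mul_add]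

theorem pull_sub (m : ℤ) (f : N → M) (s t : M → ℂ) :
    pull E m f (s - t) = pull E m f s - pull E m f t := by
  ext x; simp [pull, mul_sub]

theorem pull_smul (m : ℤ) (f : N → M) (c : ℂ) (s : M → ℂ) :
    pull E m f (c • s) = c • pull E m f s := by
  ext x; simp [pull]; ring

/-- the space of global sections -/
def globalSec (E : Type*) [NormedAddCommGroup E] [NormedSpace ℂ E]
    (M : Type*) [TopologicalSpace M] [ChartedSpace E M] (m : ℤ) : Submodule ℂ (M → ℂ) where
  carrier := {s | HolSec E m univ s}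
  zero_mem' := by
    intro e he
    have : pull E m e.symm (0 : M → ℂ) = 0 := by ext x; simp [pull]
    rw [this]
    exact differentiableOn_const _
  add_mem' := by
    intro s t hs ht e he
    rw [pull_add]
    exact (hs e he).add (ht e he)
  smul_mem' := by
    intro c s hs e he
    rw [pull_smul]
    exact (hs e he).const_smul c

/-! ### charts -/

section charts

variable {e e' : OpenPartialHomeomorph M E}

theorem mdiff_symm (he : e ∈ IsManifold.maximalAtlas 𝓘(ℂ, E) ω M) {z : E} (hz : z ∈ e.target) :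
    MDifferentiableAt 𝓘(ℂ, E) 𝓘(ℂ, E) e.symm z :=
  ((contMDiffOn_symm_of_mem_maximalAtlas he).contMDiffAt
    (e.open_target.mem_nhds hz)).mdifferentiableAt (by simp)

theorem mdiff_chart (he : e ∈ IsManifold.maximalAtlas 𝓘(ℂ, E) ω M) {x : M} (hx : x ∈ e.source) :
    MDifferentiableAt 𝓘(ℂ, E) 𝓘(ℂ, E) e x :=
  ((contMDiffOn_of_mem_maximalAtlas he).contMDiffAt
    (e.open_source.mem_nhds hx)).mdifferentiableAt (by simp)

theorem jac_symm_ne (he : e ∈ IsManifold.maximalAtlas 𝓘(ℂ, E) ω M) {z : E} (hz : z ∈ e.target) :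
    jac E e.symm z ≠ 0 := by
  have h1 : jac E (e ∘ e.symm) z = jac E e (e.symm z) * jac E e.symm z :=
    jac_comp (mdiff_chart he (e.map_target hz)) (mdiff_symm he hz)
  have h2 : (e ∘ e.symm : E → E) =ᶠ[𝓝 z] id := by
    filter_upwards [e.open_target.mem_nhds hz] with w hw
    exact e.right_inv hw
  rw [jac_congr h2, jac_id] at h1
  intro h0
  rw [h0, mul_zero] at h1
  exact one_ne_zero h1

theorem pull_symm_transition (m : ℤ) (he : e ∈ IsManifold.maximalAtlas 𝓘(ℂ, E) ω M)
    (he' : e' ∈ IsManifold.maximalAtlas 𝓘(ℂ, E) ω M) {z : E} (hz : z ∈ e.target)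
    (hz' : e.symm z ∈ e'.source) (s : M → ℂ) :
    pull E m e.symm s z = jac E (e' ∘ e.symm) z ^ m * pull E m e'.symm s (e' (e.symm z)) := by
  have h1 : (e.symm : E → M) =ᶠ[𝓝 z] (e'.symm ∘ (e' ∘ e.symm)) := by
    have : e.symm ⁻¹' e'.source ∈ 𝓝 z :=
      (e.continuousAt_symm hz).preimage_mem_nhds (e'.open_source.mem_nhds hz')
    filter_upwards [this] with w hw
    exact (e'.left_inv hw).symm
  have h2 : MDifferentiableAt 𝓘(ℂ, E) 𝓘(ℂ, E) (e' ∘ e.symm) z :=
    (mdiff_chart he' hz').comp z (mdiff_symm he hz)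
  have h3 : MDifferentiableAt 𝓘(ℂ, E) 𝓘(ℂ, E) e'.symm ((e' ∘ e.symm : E → E) z) :=
    mdiff_symm he' (e'.map_source hz')
  rw [pull_congr m h1, pull_comp (f := e'.symm) (h := (e' ∘ e.symm : E → E)) m h3 h2]
  rfl

theorem continuousAt_jac_transition [FiniteDimensional ℂ E] [IsManifold 𝓘(ℂ, E) ω M]
    (he : e ∈ IsManifold.maximalAtlas 𝓘(ℂ, E) ω M)
    (he' : e' ∈ IsManifold.maximalAtlas 𝓘(ℂ, E) ω M) {z : E} (hz : z ∈ e.target)
    (hz' : e.symm z ∈ e'.source) : ContinuousAt (jac E (e' ∘ e.symm)) z := by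
  have h1 : ContMDiffAt 𝓘(ℂ, E) 𝓘(ℂ, E) ω (e' ∘ e.symm) z :=
    ((contMDiffOn_of_mem_maximalAtlas he').contMDiffAt (e'.open_source.mem_nhds hz')).comp z
      ((contMDiffOn_symm_of_mem_maximalAtlas he).contMDiffAt (e.open_target.mem_nhds hz))
  rw [contMDiffAt_iff_contDiffAt] at h1
  have h2 : ContinuousAt (fderiv ℂ (e' ∘ e.symm)) z :=
    (h1.fderiv_right (m := 0) (by simp)).continuousAt
  have h3 : jac E (e' ∘ e.symm : E → E) = fun w => (fderiv ℂ (e' ∘ e.symm) w).det := by
    ext w
    unfold jac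
    rw [mfderiv_eq_fderiv]
    rfl
  rw [h3]
  exact (ContinuousLinearMap.continuous_det).continuousAt.comp h2

theorem jac_transition_ne (he : e ∈ IsManifold.maximalAtlas 𝓘(ℂ, E) ω M)
    (he' : e' ∈ IsManifold.maximalAtlas 𝓘(ℂ, E) ω M) {z : E} (hz : z ∈ e.target)
    (hz' : e.symm z ∈ e'.source) : jac E (e' ∘ e.symm) z ≠ 0 := by
  intro h0
  have h1 := pull_symm_transition 1 he he' hz hz' (fun _ => 1)
  rw [zpow_one, h0, zero_mul] at h1
  simp only [pull, zpow_one, mul_one] at h1
  exact jac_symm_ne he hz h1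

end charts

end Vale.Agent.P267.H178
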