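import Mathlib
import Vale.Agent.P267.H178.Defs

set_option linter.all false

open Filter Metric Set Topology
open scoped Manifold ContDiff

namespace Vale.Agent.P267.H178

/-- `f` is a biholomorphic self-map. -/
def Bih (E : Type*) [NormedAddCommGroup E] [NormedSpace ℂ E]
    {M : Type*} [TopologicalSpace M] [ChartedSpace E M] (f : Equiv.Perm M) : Prop :=
  ContMDiff 𝓘(ℂ, E) 𝓘(ℂ, E) ω f ∧ ContMDiff 𝓘(ℂ, E) 𝓘(ℂ, E) ω f.symm

variable {E : Type*} [NormedAddCommGroup E] [NormedSpace ℂ E]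
variable {M : Type*} [TopologicalSpace M] [ChartedSpace E M]

/-- the group of biholomorphic self-maps -/
def bihGroup (E : Type*) [NormedAddCommGroup E] [NormedSpace ℂ E]
    (M : Type*) [TopologicalSpace M] [ChartedSpace E M] : Subgroup (Equiv.Perm M) where
  carrier := {f | Bih E f}
  mul_mem' := by
    rintro f h ⟨hf, hf'⟩ ⟨hh, hh'⟩
    exact ⟨hf.comp hh, hh'.comp hf'⟩
  one_mem' := ⟨contMDiff_id, contMDiff_id⟩
  inv_mem' := by
    rintro f ⟨hf, hf'⟩
    exact ⟨hf', hf⟩

theorem Bih.zpow {g : Equiv.Perm M} (hg : Bih E g) (k : ℤ) : Bih E (g ^ k) :=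
  (bihGroup E M).zpow_mem (show g ∈ bihGroup E M from hg) k

theorem Bih.inv {g : Equiv.Perm M} (hg : Bih E g) : Bih E g⁻¹ :=
  (bihGroup E M).inv_mem (show g ∈ bihGroup E M from hg)

theorem Bih.mdiff {g : Equiv.Perm M} (hg : Bih E g) (x : M) :
    MDifferentiableAt 𝓘(ℂ, E) 𝓘(ℂ, E) g x :=
  hg.1.contMDiffAt.mdifferentiableAt (by simp)

/-- transport of a chart under a biholomorphic map -/
theorem Bih.exists_chart [IsManifold 𝓘(ℂ, E) ω M] {f : Equiv.Perm M} (hf : Bih E f)
    {e : OpenPartialHomeomorph M E} (he : e ∈ IsManifold.maximalAtlas 𝓘(ℂ, E) ω M) :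
    ∃ e'' ∈ IsManifold.maximalAtlas 𝓘(ℂ, E) ω M, e''.target = e.target ∧
      (∀ z, e''.symm z = f (e.symm z)) ∧ (e''.source = f.symm ⁻¹' e.source) ∧
      ∀ y, e'' y = e (f.symm y) := by
  let fh : M ≃ₜ M :=
    { toEquiv := f
      continuous_toFun := hf.1.continuous
      continuous_invFun := hf.2.continuous }
  have h1 : (fh.symm.transOpenPartialHomeomorph e) ∈ IsManifold.maximalAtlas 𝓘(ℂ, E) ω M := by
    apply OpenPartialHomeomorph.mem_maximalAtlas_of_contMDiffOn
    · have h2 : ContMDiffOn 𝓘(ℂ, E) 𝓘(ℂ, E) ω (e ∘ f.symm) (f.symm ⁻¹' e.source) :=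
        (contMDiffOn_of_mem_maximalAtlas he).comp hf.2.contMDiffOn (fun x hx => hx)
      exact h2
    · have h2 : ContMDiffOn 𝓘(ℂ, E) 𝓘(ℂ, E) ω (f ∘ e.symm) e.target :=
        hf.1.comp_contMDiffOn (contMDiffOn_symm_of_mem_maximalAtlas he)
      exact h2
  exact ⟨_, h1, rfl, fun z => rfl, rfl, fun y => rfl⟩

theorem pull_pull (m : ℤ) {f h : Equiv.Perm M} (hf : Bih E f) (hh : Bih E h) (s : M → ℂ) :
    pull E m h (pull E m f s) = pull E m (f * h) s := by
  ext x
  rw [← pull_comp m (hf.mdiff (h x)) (hh.mdiff x)]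
  rfl

theorem pull_one (m : ℤ) (s : M → ℂ) : pull E m (1 : Equiv.Perm M) s = s := pull_id m s

theorem jac_bih_ne {f : Equiv.Perm M} (hf : Bih E f) (x : M) : jac E f x ≠ 0 := by
  have h1 := pull_pull 1 hf.inv hf (fun _ => (1 : ℂ))
  rw [inv_mul_cancel, pull_one] at h1
  have h2 := congrFun h1 x
  simp only [pull, zpow_one, mul_one] at h2
  intro h0
  rw [h0, zero_mul] at h2
  exact zero_ne_one h2

/-- pull-back under a biholomorphic map, seen in a chart -/
theorem pull_symm_pull (m : ℤ) {f : Equiv.Perm M} (hf : Bih E f)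
    {e : OpenPartialHomeomorph M E} (he : e ∈ IsManifold.maximalAtlas 𝓘(ℂ, E) ω M)
    {e'' : OpenPartialHomeomorph M E} (h : ∀ z, e''.symm z = f (e.symm z)) {z : E}
    (hz : z ∈ e.target) (s : M → ℂ) :
    pull E m e.symm (pull E m f s) z = pull E m e''.symm s z := by
  rw [← pull_comp m (hf.mdiff (e.symm z)) (mdiff_symm he hz)]
  have h2 : (e''.symm : E → M) = f ∘ e.symm := funext h
  rw [h2]

theorem HolSec.pull [IsManifold 𝓘(ℂ, E) ω M] {m : ℤ} {s : M → ℂ} (hs : HolSec E m univ s)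
    {f : Equiv.Perm M} (hf : Bih E f) : HolSec E m univ (pull E m f s) := by
  intro e he
  obtain ⟨e'', he'', h1, h2, -, -⟩ := hf.exists_chart he
  have h3 := hs e'' he''
  rw [preimage_univ, inter_univ, h1] at h3
  rw [preimage_univ, inter_univ]
  exact h3.congr fun z hz => pull_symm_pull m hf he h2 hz s

/-- the action of a biholomorphic map on global sections -/
noncomputable def act [IsManifold 𝓘(ℂ, E) ω M] (m : ℤ) {g : Equiv.Perm M} (hg : Bih E g) :
    globalSec E M m ≃ₗ[ℂ] globalSec E M m where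
  toFun s := ⟨H178.pull E m g s, HolSec.pull s.2 hg⟩
  invFun s := ⟨H178.pull E m (g⁻¹ : Equiv.Perm M) s, HolSec.pull s.2 hg.inv⟩
  map_add' s t := Subtype.ext (pull_add m g s t)
  map_smul' c s := Subtype.ext (pull_smul m g c s)
  left_inv s := by
    apply Subtype.ext
    show H178.pull E m (g⁻¹ : Equiv.Perm M) (H178.pull E m g s) = s
    rw [pull_pull m hg hg.inv, mul_inv_cancel, pull_one]
  right_inv s := by
    apply Subtype.ext
    show H178.pull E m g (H178.pull E m (g⁻¹ : Equiv.Perm M) s) = s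
    rw [pull_pull m hg.inv hg, inv_mul_cancel, pull_one]

theorem act_apply [IsManifold 𝓘(ℂ, E) ω M] (m : ℤ) {g : Equiv.Perm M} (hg : Bih E g)
    (s : globalSec E M m) : ((act m hg s : globalSec E M m) : M → ℂ) = pull E m g s := rfl

theorem act_symm_apply [IsManifold 𝓘(ℂ, E) ω M] (m : ℤ) {g : Equiv.Perm M} (hg : Bih E g)
    (s : globalSec E M m) :
    (((act m hg).symm s : globalSec E M m) : M → ℂ) = pull E m (g⁻¹ : Equiv.Perm M) s := rfl

theorem act_zpow [IsManifold 𝓘(ℂ, E) ω M] (m : ℤ) {g : Equiv.Perm M} (hg : Bih E g) (k : ℤ)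
    (s : globalSec E M m) :
    ((((act m hg) ^ k) s : globalSec E M m) : M → ℂ) = pull E m (g ^ k : Equiv.Perm M) s := by
  induction k using Int.induction_on generalizing s with
  | zero => rw [zpow_zero, zpow_zero, pull_one]; rfl
  | succ i ih =>
    rw [zpow_add_one]
    show ((((act m hg) ^ (i : ℤ)) (act m hg s) : globalSec E M m) : M → ℂ) = _
    rw [ih, act_apply, pull_pull m hg (hg.zpow _), zpow_add, zpow_one]
    congr 2
    exact ((Commute.refl g).zpow_right _).eq
  | pred i ih =>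
    rw [zpow_sub_one]
    show ((((act m hg) ^ (-(i : ℤ))) ((act m hg).symm s) : globalSec E M m) : M → ℂ) = _
    rw [ih, act_symm_apply, pull_pull m hg.inv (hg.zpow _), zpow_sub, zpow_one]
    congr 2
    exact ((Commute.refl g).inv_left.zpow_right _).eq

end Vale.Agent.P267.H178
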