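import Mathlib
import Vale.Agent.P267.H178.Defs
import Vale.Agent.P267.H178.Montel

set_option linter.all false

open Filter Metric Set Topology
open scoped Manifold ContDiff

namespace Vale.Agent.P267.H178

variable {E : Type*} [NormedAddCommGroup E] [NormedSpace ℂ E] [FiniteDimensional ℂ E]
variable {M : Type*} [TopologicalSpace M] [ChartedSpace E M] [IsManifold 𝓘(ℂ, E) ω M]

/-- Montel's theorem for sections of powers of the canonical bundle. -/
theorem montel_sec {ι : Type*} (𝒰 : Ultrafilter ι) (m : ℤ) {W : ι → Set M} {s : ι → M → ℂ}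
    (hs : ∀ n, HolSec E m (W n) (s n))
    (hW : ∀ x : M, ∃ V ∈ 𝓝 x, ∀ᶠ n in (𝒰 : Filter ι), V ⊆ W n)
    (hb : ∀ x : M, ∃ e ∈ IsManifold.maximalAtlas 𝓘(ℂ, E) ω M, x ∈ e.source ∧
      ∃ V ∈ 𝓝 x, ∃ C : ℝ, ∀ᶠ n in (𝒰 : Filter ι), ∀ y ∈ V, y ∈ e.source →
        ‖pull E m e.symm (s n) (e y)‖ ≤ C) :
    ∃ τ : M → ℂ, HolSec E m univ τ ∧ (∀ x, Tendsto (fun n => s n x) 𝒰 (𝓝 (τ x))) ∧
      ∀ e ∈ IsManifold.maximalAtlas 𝓘(ℂ, E) ω M, ∀ Z ⊆ e.target, IsCompact Z →
        ∀ ε > 0, ∀ᶠ n in (𝒰 : Filter ι), ∀ z ∈ Z, ‖pull E m e.symm (s n - τ) z‖ ≤ ε := by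
  haveI : ProperSpace E := FiniteDimensional.proper ℂ E
  have hLB : ∀ e ∈ IsManifold.maximalAtlas 𝓘(ℂ, E) ω M,
      LocBdd (𝒰 : Filter ι) (fun n => pull E m e.symm (s n)) e.target := by
    intro e he z hz
    obtain ⟨e', he', hx', V, hV, C, hC⟩ := hb (e.symm z)
    obtain ⟨V', hV', hVW⟩ := hW (e.symm z)
    have hcont := continuousAt_jac_transition he he' hz hx'
    have hcont' : ContinuousAt (fun w => jac E (e' ∘ e.symm) w ^ m) z :=
      hcont.zpow₀ m (Or.inl (jac_transition_ne he he' hz hx'))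
    have h1 : ∀ᶠ w in 𝓝 z, ‖jac E (e' ∘ e.symm) w ^ m‖ ≤ ‖jac E (e' ∘ e.symm) z ^ m‖ + 1 :=
      (hcont'.norm.eventually (gt_mem_nhds (lt_add_one _))).mono fun w hw => hw.le
    have hsymm := e.continuousAt_symm hz
    have h2 : ∀ᶠ w in 𝓝 z, e.symm w ∈ V := hsymm.preimage_mem_nhds hV
    have h3 : ∀ᶠ w in 𝓝 z, e.symm w ∈ V' := hsymm.preimage_mem_nhds hV'
    have h4 : ∀ᶠ w in 𝓝 z, e.symm w ∈ e'.source :=
      hsymm.preimage_mem_nhds (e'.open_source.mem_nhds hx')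
    have h5 : ∀ᶠ w in 𝓝 z, w ∈ e.target := e.open_target.mem_nhds hz
    obtain ⟨r, hr, hball⟩ := Metric.eventually_nhds_iff_ball.1
      (h1.and (h2.and (h3.and (h4.and h5))))
    refine ⟨r, hr, (‖jac E (e' ∘ e.symm) z ^ m‖ + 1) * C, ?_⟩
    filter_upwards [hC, hVW] with n hn hnW
    constructor
    · refine (hs n e he).mono fun w hw => ?_
      obtain ⟨-, -, b3, -, b5⟩ := hball w hw
      exact ⟨b5, hnW b3⟩
    · intro w hw
      obtain ⟨b1, b2, b3, b4, b5⟩ := hball w hw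
      rw [pull_symm_transition m he he' b5 b4, norm_mul]
      have h6 := hn _ b2 b4
      exact mul_le_mul b1 h6 (norm_nonneg _) (by positivity)
  have hmon : ∀ e ∈ IsManifold.maximalAtlas 𝓘(ℂ, E) ω M, ∃ g : E → ℂ,
      DifferentiableOn ℂ g e.target ∧
      TendstoLocallyUniformlyOn (fun n => pull E m e.symm (s n)) g (𝒰 : Filter ι) e.target ∧
      ∀ z ∈ e.target, Tendsto (fun n => pull E m e.symm (s n) z) 𝒰 (𝓝 (g z)) := by
    intro e he
    obtain ⟨g, h1, h2, h3⟩ := montel_full 𝒰 e.open_target (hLB e he)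
    exact ⟨g, h1, h2, fun z hz => h3 z hz (fun _ => z) tendsto_const_nhds⟩
  have hlim : ∀ x : M, ∃ y : ℂ, Tendsto (fun n => s n x) 𝒰 (𝓝 y) := by
    intro x
    have he := IsManifold.chart_mem_maximalAtlas (I := 𝓘(ℂ, E)) (n := ω) x
    obtain ⟨g, -, -, h3⟩ := hmon _ he
    have hz : (chartAt E x) x ∈ (chartAt E x).target := mem_chart_target E x
    have h4 := h3 _ hz
    set c := jac E (chartAt E x).symm ((chartAt E x) x) ^ m with hc
    have hc0 : c ≠ 0 := zpow_ne_zero _ (jac_symm_ne he hz)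
    refine ⟨c⁻¹ * g ((chartAt E x) x), ?_⟩
    have h5 := h4.const_mul c⁻¹
    refine h5.congr fun n => ?_
    simp only [pull]
    rw [← hc, inv_mul_cancel_left₀ hc0, (chartAt E x).left_inv (mem_chart_source E x)]
  choose τ hτ using hlim
  have hg : ∀ e ∈ IsManifold.maximalAtlas 𝓘(ℂ, E) ω M, ∀ g : E → ℂ,
      (∀ z ∈ e.target, Tendsto (fun n => pull E m e.symm (s n) z) 𝒰 (𝓝 (g z))) →
      ∀ z ∈ e.target, g z = pull E m e.symm τ z := by
    intro e he g h3 z hz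
    refine tendsto_nhds_unique (h3 z hz) ?_
    simp only [pull]
    exact (hτ (e.symm z)).const_mul _
  refine ⟨τ, ?_, hτ, ?_⟩
  · intro e he
    obtain ⟨g, h1, -, h3⟩ := hmon e he
    rw [preimage_univ, inter_univ]
    exact h1.congr fun z hz => (hg e he g h3 z hz).symm
  · intro e he Z hZ hZc ε hε
    obtain ⟨g, -, h2, h3⟩ := hmon e he
    have h4 := (tendstoLocallyUniformlyOn_iff_tendstoUniformlyOn_of_compact hZc).1 (h2.mono hZ)
    rw [Metric.tendstoUniformlyOn_iff] at h4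
    filter_upwards [h4 ε hε] with n hn z hz
    have h5 := hn z hz
    rw [hg e he g h3 z (hZ hz), dist_comm, dist_eq_norm] at h5
    rw [pull_sub]
    exact h5.le

end Vale.Agent.P267.H178
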