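import Mathlib
import Vale.Agent.P267.H178.Abs
import Vale.Agent.P267.H178.MontelSec
import Vale.Agent.P267.H178.Action

set_option linter.all false

open Filter Metric Set Topology
open scoped Manifold ContDiff

namespace Vale.Agent.P267.H178

/-- An infinite cyclic covering `p : M → X` of complex manifolds, with a generator `g` of its
group of deck transformations. -/
structure CyclicCover (E : Type*) [NormedAddCommGroup E] [NormedSpace ℂ E]
    (X : Type*) [TopologicalSpace X] [ChartedSpace E X]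
    (M : Type*) [TopologicalSpace M] [ChartedSpace E M] where
  /-- the covering map -/
  p : M → X
  /-- the generator of the deck group -/
  g : Equiv.Perm M
  isCovering : IsCoveringMap p
  surjective : Function.Surjective p
  locBihol : IsLocalDiffeomorph 𝓘(ℂ, E) 𝓘(ℂ, E) ω p
  holo : ContMDiff 𝓘(ℂ, E) 𝓘(ℂ, E) ω g ∧ ContMDiff 𝓘(ℂ, E) 𝓘(ℂ, E) ω g.symm
  fibre : ∀ x y : M, p x = p y ↔ ∃! k : ℤ, (g ^ k) x = y

/-- **Tame windows.**  `s n` is a holomorphic section of `K_M^m` over the open set `W n`, the sets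
`W n` exhaust `M`, and the translates of the `s n` by the powers of `g` have uniformly exponential
growth: in every chart `e` and over every compact set `Z` of its coordinate patch, the coefficient
of `(g^k)^* (s n)` is bounded by `C ^ (|k| + 1)`, for all `n` and `k` for which it is defined
over `Z`. -/
def TameSec (E : Type*) [NormedAddCommGroup E] [NormedSpace ℂ E]
    {M : Type*} [TopologicalSpace M] [ChartedSpace E M] (g : Equiv.Perm M) (m : ℤ)
    (W : ℕ → Set M) (s : ℕ → M → ℂ) : Prop :=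
  (∀ n, IsOpen (W n) ∧ HolSec E m (W n) (s n)) ∧
  (∀ K : Set M, IsCompact K → ∀ᶠ n in atTop, K ⊆ W n) ∧
  ∀ e ∈ IsManifold.maximalAtlas 𝓘(ℂ, E) ω M, ∀ Z ⊆ e.target, IsCompact Z →
    ∃ C : ℝ, ∀ (n : ℕ) (k : ℤ), (∀ z ∈ Z, (g ^ k) (e.symm z) ∈ W n) →
      ∀ z ∈ Z, ‖pull E m (fun w => (g ^ k) (e.symm w)) (s n) z‖ ≤ C ^ (k.natAbs + 1)

section
variable {E : Type*} [NormedAddCommGroup E] [NormedSpace ℂ E] [FiniteDimensional ℂ E]
variable {X : Type*} [TopologicalSpace X] [ChartedSpace E X]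
variable {M : Type*} [TopologicalSpace M] [ChartedSpace E M]

/-- a finite family of compact sets in coordinate patches whose translates cover `M` -/
structure Frame (E : Type*) [NormedAddCommGroup E] [NormedSpace ℂ E]
    {M : Type*} [TopologicalSpace M] [ChartedSpace E M] (g : Equiv.Perm M) where
  T : Finset (OpenPartialHomeomorph M E × Set E)
  atl : ∀ t ∈ T, t.1 ∈ IsManifold.maximalAtlas 𝓘(ℂ, E) ω M
  sub : ∀ t ∈ T, t.2 ⊆ t.1.target
  cpt : ∀ t ∈ T, IsCompact t.2
  cov : ∀ y : M, ∃ (k : ℤ), ∃ t ∈ T, ∃ y' ∈ t.1.source, t.1 y' ∈ interior t.2 ∧ (g ^ k) y' = y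

theorem CyclicCover.exists_frame [CompactSpace X] [IsManifold 𝓘(ℂ, E) ω M]
    (c : CyclicCover E X M)
    (T₀ : Finset (OpenPartialHomeomorph M E × Set E))
    (h₀ : ∀ t ∈ T₀, t.1 ∈ IsManifold.maximalAtlas 𝓘(ℂ, E) ω M ∧ t.2 ⊆ t.1.target ∧
      IsCompact t.2) :
    ∃ f : Frame E c.g, T₀ ⊆ f.T := by
  classical
  haveI : ProperSpace E := FiniteDimensional.proper ℂ E
  have h1 : ∀ x : M, ∃ r > 0, closedBall (chartAt E x x) r ⊆ (chartAt E x).target := fun x =>
    Metric.nhds_basis_closedBall.mem_iff.1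
      ((chartAt E x).open_target.mem_nhds (mem_chart_target E x))
  choose r hr hsub using h1
  let V : M → Set M := fun x => (chartAt E x).source ∩ chartAt E x ⁻¹' ball (chartAt E x x) (r x)
  have hVo : ∀ x, IsOpen (V x) := fun x => (chartAt E x).isOpen_inter_preimage isOpen_ball
  have hVx : ∀ x, x ∈ V x := fun x => ⟨mem_chart_source E x, mem_ball_self (hr x)⟩
  have hopen : IsOpenMap c.p := c.isCovering.isLocalHomeomorph.isOpenMap
  obtain ⟨t, ht⟩ := isCompact_univ.elim_finite_subcover (fun x => c.p '' V x)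
    (fun x => hopen _ (hVo x)) (by
      intro y _
      obtain ⟨x, rfl⟩ := c.surjective y
      exact mem_iUnion.2 ⟨x, x, hVx x, rfl⟩)
  let pr : M → OpenPartialHomeomorph M E × Set E := fun x =>
    (chartAt E x, closedBall (chartAt E x x) (r x))
  have hpr : ∀ t' ∈ t.image pr ∪ T₀, t'.1 ∈ IsManifold.maximalAtlas 𝓘(ℂ, E) ω M ∧
      t'.2 ⊆ t'.1.target ∧ IsCompact t'.2 := by
    intro t' ht'
    rcases Finset.mem_union.1 ht' with h | h
    · obtain ⟨x, -, rfl⟩ := Finset.mem_image.1 h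
      exact ⟨IsManifold.chart_mem_maximalAtlas x, hsub x, isCompact_closedBall _ _⟩
    · exact h₀ t' h
  refine ⟨⟨t.image pr ∪ T₀, fun t' h => (hpr t' h).1, fun t' h => (hpr t' h).2.1,
    fun t' h => (hpr t' h).2.2, fun y => ?_⟩, Finset.subset_union_right⟩
  have h2 := ht (mem_univ (c.p y))
  simp only [mem_iUnion] at h2
  obtain ⟨x, hx, y', hy', h3⟩ := h2
  obtain ⟨k, hk, -⟩ := (c.fibre y' y).1 h3
  exact ⟨k, pr x, Finset.mem_union_left _ (Finset.mem_image_of_mem _ hx), y', hy'.1,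
    interior_mono ball_subset_closedBall (by rw [isOpen_ball.interior_eq]; exact hy'.2), hk⟩

variable [IsManifold 𝓘(ℂ, E) ω M]

/-- The limit of tame windows: a global section of exponential growth. -/
theorem TameSec.limit {g : Equiv.Perm M} (hg : Bih E g) {m : ℤ} {W : ℕ → Set M} {s : ℕ → M → ℂ}
    (h : TameSec E g m W s) :
    ∃ τ : M → ℂ, HolSec E m univ τ ∧
      (∀ x, Tendsto (fun n => s n x) (hyperfilter ℕ : Filter ℕ) (𝓝 (τ x))) ∧
      ∀ e ∈ IsManifold.maximalAtlas 𝓘(ℂ, E) ω M, ∀ Z ⊆ e.target, IsCompact Z →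
        ∃ C : ℝ, ∀ (k : ℤ), ∀ z ∈ Z,
          ‖pull E m (fun w => (g ^ k) (e.symm w)) τ z‖ ≤ C ^ (k.natAbs + 1) := by
  obtain ⟨h1, h2, h3⟩ := h
  haveI : ProperSpace E := FiniteDimensional.proper ℂ E
  have hUne : (hyperfilter ℕ : Filter ℕ) ≤ atTop := by
    rw [← Nat.cofinite_eq_atTop]; exact hyperfilter_le_cofinite
  -- a compact coordinate ball around each point
  have hball : ∀ x : M, ∃ r > 0, closedBall (chartAt E x x) r ⊆ (chartAt E x).target := fun x =>
    Metric.nhds_basis_closedBall.mem_iff.1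
      ((chartAt E x).open_target.mem_nhds (mem_chart_target E x))
  have hnhd : ∀ (x : M) (r : ℝ), 0 < r →
      (chartAt E x).source ∩ chartAt E x ⁻¹' ball (chartAt E x x) r ∈ 𝓝 x := fun x r hr =>
    ((chartAt E x).isOpen_inter_preimage isOpen_ball).mem_nhds
      ⟨mem_chart_source E x, mem_ball_self hr⟩
  obtain ⟨τ, hτ1, hτ2, hτ3⟩ := montel_sec (hyperfilter ℕ) m (fun n => (h1 n).2) (by
      intro x
      obtain ⟨r, hr, hsub⟩ := hball x
      refine ⟨_, hnhd x r hr, ?_⟩
      have hK : IsCompact ((chartAt E x).symm '' closedBall (chartAt E x x) r) :=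
        (isCompact_closedBall _ _).image_of_continuousOn
          ((chartAt E x).continuousOn_symm.mono hsub)
      filter_upwards [hUne (h2 _ hK)] with n hn y hy
      exact hn ⟨chartAt E x y, ball_subset_closedBall hy.2, (chartAt E x).left_inv hy.1⟩) (by
      intro x
      obtain ⟨r, hr, hsub⟩ := hball x
      have he := IsManifold.chart_mem_maximalAtlas (I := 𝓘(ℂ, E)) (n := ω) x
      obtain ⟨C, hC⟩ := h3 _ he _ hsub (isCompact_closedBall _ _)
      refine ⟨_, he, mem_chart_source E x, _, hnhd x r hr, C, ?_⟩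
      have hK : IsCompact ((chartAt E x).symm '' closedBall (chartAt E x x) r) :=
        (isCompact_closedBall _ _).image_of_continuousOn
          ((chartAt E x).continuousOn_symm.mono hsub)
      filter_upwards [hUne (h2 _ hK)] with n hn y hy hy'
      have h4 := hC n 0 (fun z hz => by
        rw [zpow_zero]; exact hn ⟨z, hz, rfl⟩) _ (ball_subset_closedBall hy.2)
      simpa using h4)
  refine ⟨τ, hτ1, hτ2, ?_⟩
  intro e he Z hZ hZc
  obtain ⟨C, hC⟩ := h3 e he Z hZ hZc
  refine ⟨C, fun k z hz => ?_⟩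
  obtain ⟨e'', he'', hta, hsy, -, -⟩ := (hg.zpow k).exists_chart he
  have hfun : (fun w => (g ^ k) (e.symm w)) = (e''.symm : E → M) := (funext hsy).symm
  refine le_of_forall_pos_le_add fun ε hε => ?_
  have h4 := hτ3 e'' he'' Z (hta ▸ hZ) hZc ε hε
  have hK : IsCompact (e''.symm '' Z) :=
    hZc.image_of_continuousOn (e''.continuousOn_symm.mono (hta ▸ hZ))
  obtain ⟨n, hn1, hn2⟩ := (h4.and (hUne (h2 _ hK))).exists
  have h5 := hC n k (fun w hw => by rw [← hsy]; exact hn2 ⟨w, hw, rfl⟩) z hz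
  rw [hfun] at h5 ⊢
  have h6 := hn1 z hz
  rw [pull_sub, Pi.sub_apply] at h6
  have h7 : pull E m e''.symm τ z = pull E m e''.symm (s n) z -
      (pull E m e''.symm (s n) z - pull E m e''.symm τ z) := by ring
  rw [h7]
  exact (norm_sub_le _ _).trans (add_le_add h5 h6)

/-- A global section of exponential growth gives an automorphic section. -/
theorem eigen_of_growth {g : Equiv.Perm M} (hg : Bih E g) (f : Frame E g) (m : ℤ) {s : M → ℂ}
    (hs : HolSec E m univ s) (hs0 : s ≠ 0)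
    (hgrow : ∀ t ∈ f.T, ∃ C : ℝ, ∀ (k : ℤ), ∀ z ∈ t.2,
          ‖pull E m (fun w => (g ^ k) (t.1.symm w)) s z‖ ≤ C ^ (k.natAbs + 1)) :
    ∃ (l : ℂ) (τ : M → ℂ), l ≠ 0 ∧ HolSec E m univ τ ∧ τ ≠ 0 ∧ pull E m g τ = l • τ := by
  classical
  haveI : ProperSpace E := FiniteDimensional.proper ℂ E
  let Q := {q : (OpenPartialHomeomorph M E × Set E) × E // q.1 ∈ f.T ∧ q.2 ∈ q.1.2}
  let ev : Q → globalSec E M m →ₗ[ℂ] ℂ := fun q =>
    { toFun := fun s => pull E m q.1.1.1.symm s q.1.2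
      map_add' := fun s t => by
        show pull E m _ ((s : M → ℂ) + (t : M → ℂ)) _ = _
        rw [pull_add]; rfl
      map_smul' := fun c s => by
        show pull E m _ (c • (s : M → ℂ)) _ = _
        rw [pull_smul]; rfl }
  have hev : ∀ (q : Q) (t : globalSec E M m),
      ev q t = pull E m q.1.1.1.symm (t : M → ℂ) q.1.2 := fun q t => rfl
  have hqt : ∀ q : Q, q.1.2 ∈ q.1.1.1.target := fun q => f.sub _ q.2.1 q.2.2
  have hevk : ∀ (q : Q) (k : ℤ) (t : globalSec E M m), ev q (((act m hg) ^ k) t) =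
      pull E m (fun w => (g ^ k) (q.1.1.1.symm w)) (t : M → ℂ) q.1.2 := by
    intro q k t
    rw [hev, act_zpow, ← pull_comp m ((hg.zpow k).mdiff _) (mdiff_symm (f.atl _ q.2.1) (hqt q))]
    rfl
  -- the growth constant
  choose! Cx hCx using hgrow
  obtain ⟨C, hC1, hCC⟩ : ∃ C : ℝ, 1 ≤ C ∧ ∀ x ∈ f.T, |Cx x| ≤ C := by
    refine ⟨1 + ∑ x ∈ f.T, |Cx x|, le_add_of_nonneg_right (Finset.sum_nonneg fun _ _ => abs_nonneg _),
      fun x hx => ?_⟩
    have := Finset.single_le_sum (f := fun x => |Cx x|) (fun _ _ => abs_nonneg _) hx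
    linarith
  have hsep : ∀ t : globalSec E M m,
      (∀ (k : ℤ) (q : Q), ev q (((act m hg) ^ k) t) = 0) → t = 0 := by
    intro t ht
    apply Subtype.ext
    ext y
    obtain ⟨k, x, hx, y', hy', hyb, rfl⟩ := f.cov y
    have h1 := ht k ⟨(x, x.1 y'), hx, interior_subset hyb⟩
    rw [hev, act_zpow] at h1
    simp only [pull] at h1
    rw [x.1.left_inv hy'] at h1
    have h2 := jac_symm_ne (f.atl x hx) (x.1.map_source hy')
    have h3 := jac_bih_ne (hg.zpow k) y'
    rcases mul_eq_zero.1 h1 with h4 | h4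
    · exact absurd h4 (zpow_ne_zero _ h2)
    · rcases mul_eq_zero.1 h4 with h5 | h5
      · exact absurd h5 (zpow_ne_zero _ h3)
      · exact h5
  have hmon : ∀ (σ : ℕ → globalSec E M m) (B : ℤ → ℝ),
      (∀ n k q, ‖ev q (((act m hg) ^ k) (σ n))‖ ≤ B k) →
      ∃ τ : globalSec E M m, ∀ (k : ℤ), ∀ ε > 0, ∀ᶠ n in (hyperfilter ℕ : Filter ℕ),
        ∀ q, ‖ev q (((act m hg) ^ k) (σ n - τ))‖ ≤ ε := by
    intro σ B hB
    obtain ⟨τ, hτ1, -, hτ3⟩ := montel_sec (W := fun _ : ℕ => (univ : Set M)) (hyperfilter ℕ) m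
      (fun n => (σ n).2) (fun x => ⟨univ, univ_mem, Eventually.of_forall fun n => subset_rfl⟩) (by
        intro y
        obtain ⟨k, x, hx, y', hy', hyb, rfl⟩ := f.cov y
        obtain ⟨e'', he'', hta, hsy, hso, hap⟩ := (hg.zpow k).exists_chart (f.atl x hx)
        have hsymm : (g ^ k).symm ((g ^ k) y') = y' := (g ^ k).symm_apply_apply y'
        have hmem : (g ^ k) y' ∈ e''.source := by
          rw [hso, mem_preimage, hsymm]; exact hy'
        refine ⟨e'', he'', hmem, e''.source ∩ e'' ⁻¹' interior x.2,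
          (e''.isOpen_inter_preimage isOpen_interior).mem_nhds ⟨hmem, ?_⟩, B k, ?_⟩
        · rw [mem_preimage, hap, hsymm]; exact hyb
        · refine Eventually.of_forall fun n w hw hw' => ?_
          have h1 := hB n k ⟨(x, e'' w), hx, interior_subset hw.2⟩
          rw [hevk] at h1
          have hfun : (fun w => (g ^ k) (x.1.symm w)) = (e''.symm : E → M) :=
            (funext hsy).symm
          simp only [hfun] at h1
          exact h1)
    refine ⟨⟨τ, hτ1⟩, fun k ε hε => ?_⟩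
    have h1 : ∀ x ∈ f.T, ∀ᶠ n in (hyperfilter ℕ : Filter ℕ),
        ∀ z ∈ x.2, ‖pull E m (fun w => (g ^ k) (x.1.symm w)) ((σ n : M → ℂ) - τ) z‖ ≤ ε := by
      intro x hx
      obtain ⟨e'', he'', hta, hsy, -, -⟩ := (hg.zpow k).exists_chart (f.atl x hx)
      have hfun : (fun w => (g ^ k) (x.1.symm w)) = (e''.symm : E → M) :=
        (funext hsy).symm
      rw [hfun]
      exact hτ3 e'' he'' _ (hta ▸ f.sub x hx) (f.cpt x hx) ε hε
    have h2 := (Finset.eventually_all f.T).2 h1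
    filter_upwards [h2] with n hn q
    rw [hevk]
    exact hn _ q.2.1 _ q.2.2
  have hgr : ∀ (k : ℤ) (q : Q),
      ‖ev q (((act m hg) ^ k) (⟨s, hs⟩ : globalSec E M m))‖ ≤ C * C ^ k.natAbs := by
    intro k q
    rw [hevk]
    refine (hCx _ q.2.1 k _ q.2.2).trans ?_
    have h1 : Cx q.1.1 ^ (k.natAbs + 1) ≤ C ^ (k.natAbs + 1) :=
      (le_abs_self _).trans (by
        rw [abs_pow]; exact pow_le_pow_left₀ (abs_nonneg _) (hCC _ q.2.1) _)
    rw [pow_succ'] at h1 ⊢
    rw [pow_succ'] at h1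
    exact h1
  obtain ⟨l, τ, hl, hτ0, hτ⟩ := exists_eigen (act m hg) ev hsep hmon hC1
    (fun h => hs0 (congrArg Subtype.val h)) hgr
  exact ⟨l, τ, hl, τ.2, fun h => hτ0 (Subtype.ext h), congrArg Subtype.val hτ⟩

end

end Vale.Agent.P267.H178
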