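import Mathlib
import Vale.Agent.P267.H178.Main

set_option linter.all false

open Filter Metric Set Topology
open scoped Manifold ContDiff

namespace Vale.Agent.P267.H178

/-- Record times of a sequence of finite exponential type. -/
theorem exists_record {N : ℕ → ℝ} (hN : ∀ k, 0 ≤ N k) {k₁ : ℕ} {C c : ℝ} (hC : 1 ≤ C)
    (hup : ∀ k, k₁ ≤ k → N k ≤ C ^ (k + 1)) (hc : 0 < c)
    (hlow : ∃ᶠ k : ℕ in atTop, c ^ (k + 1) ≤ N k) :
    ∃ D : ℝ, 1 ≤ D ∧ ∀ n : ℕ, ∃ κ : ℕ, n ≤ κ ∧ k₁ ≤ κ ∧ 0 < N κ ∧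
      ∀ k, k₁ ≤ k → N k ≤ N κ * D ^ ((k : ℤ) - κ).natAbs := by
  wlog hc1 : c ≤ 1 generalizing c
  · push Not at hc1
    refine this one_pos (hlow.mono fun k hk => ?_) le_rfl
    rw [one_pow]
    exact (one_le_pow₀ hc1.le).trans hk
  have hC0 : 0 < C := lt_of_lt_of_le one_pos hC
  set D : ℝ := 2 * C / c with hD
  have hD2C : 2 * C ≤ D := by
    rw [hD, le_div_iff₀ hc]; nlinarith
  have hD1 : 1 ≤ D := by linarith
  have hD0 : 0 < D := by linarith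
  have hcD : c * D = 2 * C := by rw [hD]; field_simp
  refine ⟨D, hD1, fun n => ?_⟩
  -- a good starting index
  have hev : ∀ᶠ k : ℕ in atTop, C ^ (n + 1) * D ^ n < c * 2 ^ k := by
    have h1 : Tendsto (fun k : ℕ => c * (2 : ℝ) ^ k) atTop atTop :=
      (tendsto_pow_atTop_atTop_of_one_lt (by norm_num : (1 : ℝ) < 2)).const_mul_atTop hc
    exact h1.eventually_gt_atTop _
  obtain ⟨k₀, hk0, hk0', hk0n, hk01⟩ := (hlow.and_eventually (hev.and
    ((eventually_ge_atTop n).and (eventually_ge_atTop k₁)))).exists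
  let φ : ℕ → ℝ := fun k => N k * (D⁻¹) ^ ((k : ℤ) - k₀).natAbs
  have hφ0 : φ k₀ = N k₀ := by simp [φ]
  have hck : 0 < c ^ (k₀ + 1) := pow_pos hc _
  have hφpos : 0 < φ k₀ := by rw [hφ0]; exact lt_of_lt_of_le hck hk0
  obtain ⟨j, hj⟩ : ∃ j : ℕ, C ^ (k₀ + 1) * (1 / 2) ^ j < φ k₀ := by
    obtain ⟨j, hj⟩ := exists_pow_lt_of_lt_one (show 0 < φ k₀ / C ^ (k₀ + 1) by positivity)
      (by norm_num : (1 / 2 : ℝ) < 1)
    exact ⟨j, by rw [lt_div_iff₀ (by positivity)] at hj; linarith⟩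
  have hfar : ∀ k, k₀ + j ≤ k → φ k ≤ φ k₀ := by
    intro k hk
    obtain ⟨i, rfl⟩ := Nat.exists_eq_add_of_le (show k₀ ≤ k by omega)
    have hi : j ≤ i := by omega
    have h1 : (((k₀ + i : ℕ) : ℤ) - k₀).natAbs = i := by push_cast; simp
    have h2 : φ (k₀ + i) = N (k₀ + i) * (D⁻¹) ^ i := by simp only [φ]; rw [h1]
    rw [h2]
    have h3 := hup (k₀ + i) (by omega)
    have h4 : (D⁻¹) ^ i ≤ ((2 * C)⁻¹) ^ i :=
      pow_le_pow_left₀ (by positivity) (inv_anti₀ (by positivity) hD2C) _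
    have h5 : C ^ (k₀ + i + 1) * ((2 * C)⁻¹) ^ i = C ^ (k₀ + 1) * (1 / 2) ^ i := by
      rw [mul_inv, mul_pow]
      have : C ^ (k₀ + i + 1) = C ^ (k₀ + 1) * C ^ i := by ring
      rw [this]
      have h6 : C ^ i * (C⁻¹) ^ i = 1 := by rw [← mul_pow, mul_inv_cancel₀ hC0.ne', one_pow]
      calc C ^ (k₀ + 1) * C ^ i * (2⁻¹ ^ i * C⁻¹ ^ i) = C ^ (k₀ + 1) * 2⁻¹ ^ i * (C ^ i * C⁻¹ ^ i) := by ring
        _ = C ^ (k₀ + 1) * (1 / 2) ^ i := by rw [h6, mul_one, one_div]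
    have h7 : ((1 : ℝ) / 2) ^ i ≤ (1 / 2) ^ j := pow_le_pow_of_le_one (by norm_num) (by norm_num) hi
    calc N (k₀ + i) * (D⁻¹) ^ i ≤ C ^ (k₀ + i + 1) * ((2 * C)⁻¹) ^ i :=
          mul_le_mul h3 h4 (by positivity) (by positivity)
      _ = C ^ (k₀ + 1) * (1 / 2) ^ i := h5
      _ ≤ C ^ (k₀ + 1) * (1 / 2) ^ j := mul_le_mul_of_nonneg_left h7 (by positivity)
      _ ≤ φ k₀ := hj.le
  obtain ⟨κ, hκ, hκmax⟩ := Finset.exists_max_image (Finset.Icc k₁ (k₀ + j)) φ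
    ⟨k₀, Finset.mem_Icc.2 ⟨hk01, by omega⟩⟩
  rw [Finset.mem_Icc] at hκ
  have hmax : ∀ k, k₁ ≤ k → φ k ≤ φ κ := by
    intro k hk
    by_cases hk' : k ≤ k₀ + j
    · exact hκmax k (Finset.mem_Icc.2 ⟨hk, hk'⟩)
    · exact (hfar k (by omega)).trans (hκmax k₀ (Finset.mem_Icc.2 ⟨hk01, by omega⟩))
  have hφκ : c ^ (k₀ + 1) ≤ φ κ := by
    have := hmax k₀ hk01
    rw [hφ0] at this
    exact hk0.trans this
  have hNκ : 0 < N κ := by
    have h1 : 0 < φ κ := lt_of_lt_of_le hck hφκ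
    by_contra hcon
    push Not at hcon
    have h2 : N κ = 0 := le_antisymm hcon (hN κ)
    simp only [φ, h2, zero_mul] at h1
    exact lt_irrefl _ h1
  refine ⟨κ, ?_, hκ.1, hNκ, ?_⟩
  · by_contra hcon
    push Not at hcon
    obtain ⟨i, rfl⟩ := Nat.exists_eq_add_of_le (show κ ≤ k₀ by omega)
    have h1 : ((κ : ℤ) - ((κ + i : ℕ) : ℤ)).natAbs = i := by push_cast; simp
    have h2 : φ κ = N κ * (D⁻¹) ^ i := by simp only [φ]; rw [h1]
    rw [h2] at hφκ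
    have h3 := hup κ hκ.1
    have h4 : c ^ (κ + i + 1) * D ^ (κ + i) ≤ C ^ (n + 1) * D ^ n := by
      have h5 : c ^ (κ + i + 1) * D ^ (κ + i) ≤ (N κ * (D⁻¹) ^ i) * D ^ (κ + i) :=
        mul_le_mul_of_nonneg_right hφκ (by positivity)
      have h6 : (N κ * (D⁻¹) ^ i) * D ^ (κ + i) = N κ * D ^ κ := by
        rw [pow_add, inv_pow]
        field_simp
      rw [h6] at h5
      refine h5.trans (mul_le_mul (h3.trans (pow_le_pow_right₀ hC (by omega)))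
        (pow_le_pow_right₀ hD1 (by omega)) (by positivity) (by positivity))
    have h7 : c ^ (κ + i + 1) * D ^ (κ + i) = c * (2 * C) ^ (κ + i) := by
      rw [← hcD]; ring
    rw [h7] at h4
    have h8 : c * 2 ^ (κ + i) ≤ c * (2 * C) ^ (κ + i) :=
      mul_le_mul_of_nonneg_left (pow_le_pow_left₀ (by norm_num) (by linarith) _) hc.le
    linarith
  · intro k hk
    have h1 := hmax k hk
    simp only [φ] at h1
    have h2 : D ^ ((k : ℤ) - k₀).natAbs ≤ D ^ ((k : ℤ) - κ).natAbs * D ^ ((κ : ℤ) - k₀).natAbs := by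
      rw [← pow_add]
      refine pow_le_pow_right₀ hD1 ?_
      omega
    have h3 : N k ≤ N κ * (D⁻¹) ^ ((κ : ℤ) - k₀).natAbs * D ^ ((k : ℤ) - k₀).natAbs := by
      have h4 := mul_le_mul_of_nonneg_right h1
        (show 0 ≤ D ^ ((k : ℤ) - k₀).natAbs by positivity)
      have h5 : N k * D⁻¹ ^ ((k : ℤ) - k₀).natAbs * D ^ ((k : ℤ) - k₀).natAbs = N k := by
        rw [mul_assoc, ← mul_pow, inv_mul_cancel₀ hD0.ne', one_pow, mul_one]
      rwa [h5] at h4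
    refine h3.trans ?_
    have h6 : N κ * (D⁻¹) ^ ((κ : ℤ) - k₀).natAbs * D ^ ((k : ℤ) - k₀).natAbs ≤
        N κ * (D⁻¹) ^ ((κ : ℤ) - k₀).natAbs *
          (D ^ ((k : ℤ) - κ).natAbs * D ^ ((κ : ℤ) - k₀).natAbs) :=
      mul_le_mul_of_nonneg_left h2 (by positivity)
    refine h6.trans (le_of_eq ?_)
    have h7 : (D⁻¹) ^ ((κ : ℤ) - k₀).natAbs * D ^ ((κ : ℤ) - k₀).natAbs = 1 := by
      rw [← mul_pow, inv_mul_cancel₀ hD0.ne', one_pow]
    calc N κ * (D⁻¹) ^ ((κ : ℤ) - k₀).natAbs *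
          (D ^ ((k : ℤ) - κ).natAbs * D ^ ((κ : ℤ) - k₀).natAbs) =
        N κ * D ^ ((k : ℤ) - κ).natAbs *
          ((D⁻¹) ^ ((κ : ℤ) - k₀).natAbs * D ^ ((κ : ℤ) - k₀).natAbs) := by ring
      _ = _ := by rw [h7, mul_one]

/-- **Sections of finite exponential type over one end.**  `V` is an open neighbourhood of the end
of `M` towards which `g` moves the points, `s` is a holomorphic section of `K_M^m` over `V`; in
every chart and over every compact set `Z` of its coordinate patch the coefficients of the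
translates `(g^k)^* s`, `k ≥ 0`, are bounded by `C ^ (k + 1)` (as soon as they are defined
over `Z`), and for some chart and some compact set their suprema are at least `c ^ (k + 1)` for
infinitely many `k`, with some `c > 0`. -/
def EndSec (E : Type*) [NormedAddCommGroup E] [NormedSpace ℂ E]
    {M : Type*} [TopologicalSpace M] [ChartedSpace E M] (g : Equiv.Perm M) (m : ℤ)
    (V : Set M) (s : M → ℂ) : Prop :=
  IsOpen V ∧ HolSec E m V s ∧
  (∀ K : Set M, IsCompact K → ∀ᶠ k : ℕ in atTop, ∀ x ∈ K, (g ^ k) x ∈ V) ∧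
  (∀ e ∈ IsManifold.maximalAtlas 𝓘(ℂ, E) ω M, ∀ Z ⊆ e.target, IsCompact Z →
    ∃ C : ℝ, ∀ k : ℕ, (∀ z ∈ Z, (g ^ k) (e.symm z) ∈ V) →
      ∀ z ∈ Z, ‖pull E m (fun w => (g ^ k) (e.symm w)) s z‖ ≤ C ^ (k + 1)) ∧
  ∃ e ∈ IsManifold.maximalAtlas 𝓘(ℂ, E) ω M, ∃ Z ⊆ e.target, IsCompact Z ∧
    ∃ c > (0 : ℝ), ∃ᶠ k : ℕ in atTop,
      ∃ z ∈ Z, c ^ (k + 1) ≤ ‖pull E m (fun w => (g ^ k) (e.symm w)) s z‖

section
variable {E : Type*} [NormedAddCommGroup E] [NormedSpace ℂ E]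
variable {M : Type*} [TopologicalSpace M] [ChartedSpace E M]

theorem HolSec.pull' [IsManifold 𝓘(ℂ, E) ω M] {m : ℤ} {V : Set M} {s : M → ℂ}
    (hs : HolSec E m V s) {f : Equiv.Perm M} (hf : Bih E f) :
    HolSec E m (f ⁻¹' V) (H178.pull E m f s) := by
  intro e he
  obtain ⟨e'', he'', h1, h2, -, -⟩ := hf.exists_chart he
  have h3 := hs e'' he''
  have h4 : e''.target ∩ e''.symm ⁻¹' V = e.target ∩ e.symm ⁻¹' (f ⁻¹' V) := by
    ext z
    simp only [mem_inter_iff, mem_preimage, h1, h2]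
  rw [h4] at h3
  exact h3.congr fun z hz => pull_symm_pull m hf he h2 hz.1 s

theorem coef_shift {g : Equiv.Perm M} (hg : Bih E g) (m : ℤ) {e : OpenPartialHomeomorph M E}
    (he : e ∈ IsManifold.maximalAtlas 𝓘(ℂ, E) ω M) {z : E} (hz : z ∈ e.target) (i j : ℤ)
    (s : M → ℂ) :
    pull E m (fun w => (g ^ j) (e.symm w)) (pull E m (g ^ i : Equiv.Perm M) s) z =
      pull E m (fun w => (g ^ (i + j)) (e.symm w)) s z := by
  have h1 : MDifferentiableAt 𝓘(ℂ, E) 𝓘(ℂ, E) (fun w => (g ^ j) (e.symm w)) z :=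
    ((hg.zpow j).mdiff _).comp z (mdiff_symm he hz)
  rw [← pull_comp m ((hg.zpow i).mdiff _) h1]
  have h2 : ((g ^ i : Equiv.Perm M) ∘ fun w => (g ^ j) (e.symm w)) =
      fun w => (g ^ (i + j)) (e.symm w) := by
    ext w
    rw [zpow_add]; rfl
  rw [h2]

variable [FiniteDimensional ℂ E] [IsManifold 𝓘(ℂ, E) ω M]

/-- A section of finite exponential type over one end has a nonzero limit of exponential growth
over all of `M`. -/
theorem EndSec.limit {g : Equiv.Perm M} (hg : Bih E g) {m : ℤ} {V : Set M} {s : M → ℂ}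
    (hV : IsOpen V) (hs : HolSec E m V s)
    (hfin : ∀ K : Set M, IsCompact K → ∀ᶠ k : ℕ in atTop, ∀ x ∈ K, (g ^ k) x ∈ V)
    (hup : ∀ e ∈ IsManifold.maximalAtlas 𝓘(ℂ, E) ω M, ∀ Z ⊆ e.target, IsCompact Z →
      ∃ C : ℝ, ∀ k : ℕ, (∀ z ∈ Z, (g ^ k) (e.symm z) ∈ V) →
        ∀ z ∈ Z, ‖pull E m (fun w => (g ^ k) (e.symm w)) s z‖ ≤ C ^ (k + 1))
    (f : Frame E g) {e₀ : OpenPartialHomeomorph M E} {Z₀ : Set E} (h₀ : (e₀, Z₀) ∈ f.T)
    {c : ℝ} (hc : 0 < c) (hlow : ∃ᶠ k : ℕ in atTop,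
      ∃ z ∈ Z₀, c ^ (k + 1) ≤ ‖pull E m (fun w => (g ^ k) (e₀.symm w)) s z‖) :
    ∃ τ : M → ℂ, HolSec E m univ τ ∧ τ ≠ 0 ∧
      ∀ t ∈ f.T, ∃ C : ℝ, ∀ (k : ℤ), ∀ z ∈ t.2,
          ‖pull E m (fun w => (g ^ k) (t.1.symm w)) τ z‖ ≤ C ^ (k.natAbs + 1) := by
  classical
  haveI : ProperSpace E := FiniteDimensional.proper ℂ E
  have hUne : (hyperfilter ℕ : Filter ℕ) ≤ atTop := by
    rw [← Nat.cofinite_eq_atTop]; exact hyperfilter_le_cofinite
  have hpn : ∀ (k : ℕ) (x : M), (g ^ (k : ℤ)) x = (g ^ k) x := fun k x => by rw [zpow_natCast]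
  let Q := {q : (OpenPartialHomeomorph M E × Set E) × E // q.1 ∈ f.T ∧ q.2 ∈ q.1.2}
  have hqt : ∀ q : Q, q.1.2 ∈ q.1.1.1.target := fun q => f.sub _ q.2.1 q.2.2
  let cc : ℤ → Q → ℝ := fun k q => ‖pull E m (fun w => (g ^ k) (q.1.1.1.symm w)) s q.1.2‖
  -- eventually everything is inside `V`
  have hKt : ∀ t ∈ f.T, IsCompact (t.1.symm '' t.2) := fun t ht =>
    (f.cpt t ht).image_of_continuousOn (t.1.continuousOn_symm.mono (f.sub t ht))
  have hKall : IsCompact (⋃ t ∈ f.T, t.1.symm '' t.2) := f.T.isCompact_biUnion hKt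
  obtain ⟨k₁, hk₁⟩ := eventually_atTop.1 (hfin _ hKall)
  have hin : ∀ k : ℕ, k₁ ≤ k → ∀ t ∈ f.T, ∀ z ∈ t.2, (g ^ k) (t.1.symm z) ∈ V :=
    fun k hk t ht z hz => hk₁ k hk _ (mem_biUnion ht ⟨z, hz, rfl⟩)
  -- common constant
  have hCt : ∀ t ∈ f.T, ∃ C : ℝ, ∀ k : ℕ, (∀ z ∈ t.2, (g ^ k) (t.1.symm z) ∈ V) →
        ∀ z ∈ t.2, ‖pull E m (fun w => (g ^ k) (t.1.symm w)) s z‖ ≤ C ^ (k + 1) :=
    fun t ht => hup _ (f.atl t ht) _ (f.sub t ht) (f.cpt t ht)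
  choose! Cx hCx using hCt
  obtain ⟨C, hC1, hCC⟩ : ∃ C : ℝ, 1 ≤ C ∧ ∀ x ∈ f.T, |Cx x| ≤ C := by
    refine ⟨1 + ∑ x ∈ f.T, |Cx x|, le_add_of_nonneg_right (Finset.sum_nonneg fun _ _ => abs_nonneg _),
      fun x hx => ?_⟩
    have := Finset.single_le_sum (f := fun x => |Cx x|) (fun _ _ => abs_nonneg _) hx
    linarith
  have hccup : ∀ k : ℕ, k₁ ≤ k → ∀ q : Q, cc k q ≤ C ^ (k + 1) := by
    intro k hk q
    have h1 := hCx _ q.2.1 k (hin k hk _ q.2.1) _ q.2.2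
    have h2 : cc k q = ‖pull E m (fun w => (g ^ k) (q.1.1.1.symm w)) s q.1.2‖ := by
      simp only [cc, zpow_natCast]
    rw [h2]
    exact h1.trans ((le_abs_self _).trans (by
        rw [abs_pow]; exact pow_le_pow_left₀ (abs_nonneg _) (hCC _ q.2.1) _))
  let N : ℕ → ℝ := fun k => ⨆ q : Q, cc k q
  have hbdd : ∀ k : ℕ, k₁ ≤ k → BddAbove (range (cc k)) := fun k hk =>
    ⟨C ^ (k + 1), by rintro _ ⟨q, rfl⟩; exact hccup k hk q⟩
  have hN0 : ∀ k, 0 ≤ N k := fun k => Real.iSup_nonneg fun q => norm_nonneg _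
  have hccN : ∀ k : ℕ, k₁ ≤ k → ∀ q : Q, cc k q ≤ N k := fun k hk q => le_ciSup (hbdd k hk) q
  have hlowN : ∃ᶠ k : ℕ in atTop, c ^ (k + 1) ≤ N k := by
    refine (hlow.and_eventually (eventually_ge_atTop k₁)).mono ?_
    rintro k ⟨⟨z, hz, h⟩, hk⟩
    refine h.trans ?_
    have h2 := hccN k hk ⟨((e₀, Z₀), z), h₀, hz⟩
    simp only [cc, zpow_natCast] at h2
    exact h2
  have hNup : ∀ k, k₁ ≤ k → N k ≤ C ^ (k + 1) := by
    intro k hk
    by_cases hQ : Nonempty Q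
    · exact ciSup_le fun q => hccup k hk q
    · rw [not_nonempty_iff] at hQ
      have : N k = 0 := Real.iSup_of_isEmpty _
      rw [this]; positivity
  obtain ⟨D, hD1, hrec⟩ := exists_record hN0 hC1 hNup hc hlowN
  choose κ hκn hκ1 hκpos hκD using hrec
  have hD0 : 0 < D := lt_of_lt_of_le one_pos hD1
  let S : ℕ → M → ℂ := fun n => (((N (κ n) : ℝ) : ℂ)⁻¹) • pull E m (g ^ (κ n : ℤ) : Equiv.Perm M) s
  have hS : ∀ n, HolSec E m ((g ^ (κ n : ℤ) : Equiv.Perm M) ⁻¹' V) (S n) := by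
    intro n e he
    have h1 := (hs.pull' (hg.zpow (κ n : ℤ))) e he
    have h2 := h1.const_smul (((N (κ n) : ℝ) : ℂ)⁻¹)
    simp only [S]
    rw [pull_smul]
    exact h2
  -- size of the translates of `S n`
  have hcoef : ∀ (n : ℕ) (j : ℤ) (q : Q),
      ‖pull E m (fun w => (g ^ j) (q.1.1.1.symm w)) (S n) q.1.2‖ =
        (N (κ n))⁻¹ * cc (κ n + j) q := by
    intro n j q
    simp only [S]
    rw [pull_smul, Pi.smul_apply, norm_smul, norm_inv, Complex.norm_real,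
      Real.norm_of_nonneg (hN0 _), coef_shift hg m (f.atl _ q.2.1) (hqt q)]
  have hcoef' : ∀ (n : ℕ) (j : ℤ) (q : Q), k₁ + j.natAbs ≤ n →
      ‖pull E m (fun w => (g ^ j) (q.1.1.1.symm w)) (S n) q.1.2‖ ≤ D ^ j.natAbs := by
    intro n j q hn
    rw [hcoef, inv_mul_le_iff₀ (hκpos n)]
    have h1 := hκn n
    obtain ⟨k, hk⟩ : ∃ k : ℕ, (κ n : ℤ) + j = k := ⟨((κ n : ℤ) + j).toNat, by omega⟩
    have hk1 : k₁ ≤ k := by omega
    rw [hk]
    refine (hccN k hk1 q).trans ?_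
    have h2 := hκD n k hk1
    have h3 : ((k : ℤ) - κ n).natAbs = j.natAbs := by omega
    rwa [h3] at h2
  obtain ⟨τ, hτ1, -, hτ3⟩ := montel_sec (hyperfilter ℕ) m hS (by
      intro x
      obtain ⟨K, hK, hxK⟩ : ∃ K : Set M, IsCompact K ∧ K ∈ 𝓝 x := by
        haveI : LocallyCompactSpace M := ChartedSpace.locallyCompactSpace E M
        obtain ⟨K, hK, hKx⟩ := exists_compact_mem_nhds x
        exact ⟨K, hK, hKx⟩
      refine ⟨K, hxK, ?_⟩
      obtain ⟨k₂, hk₂⟩ := eventually_atTop.1 (hfin K hK)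
      filter_upwards [hUne (eventually_ge_atTop k₂)] with n hn x hx
      rw [mem_preimage, hpn]
      exact hk₂ _ (hn.trans (hκn n)) x hx) (by
      intro y
      obtain ⟨k, x, hx, y', hy', hyb, rfl⟩ := f.cov y
      obtain ⟨e'', he'', hta, hsy, hso, hap⟩ := (hg.zpow k).exists_chart (f.atl x hx)
      have hsymm : (g ^ k).symm ((g ^ k) y') = y' := (g ^ k).symm_apply_apply y'
      have hmem : (g ^ k) y' ∈ e''.source := by
        rw [hso, mem_preimage, hsymm]; exact hy'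
      refine ⟨e'', he'', hmem, e''.source ∩ e'' ⁻¹' interior x.2,
        (e''.isOpen_inter_preimage isOpen_interior).mem_nhds ⟨hmem, ?_⟩, D ^ k.natAbs, ?_⟩
      · rw [mem_preimage, hap, hsymm]; exact hyb
      · filter_upwards [hUne (eventually_ge_atTop (k₁ + k.natAbs))] with n hn w hw hw'
        have h1 := hcoef' n k ⟨(x, e'' w), hx, interior_subset hw.2⟩ hn
        have hfun : (fun w => (g ^ k) (x.1.symm w)) = (e''.symm : E → M) :=
          (funext hsy).symm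
        simp only [hfun] at h1
        exact h1)
  have hconv : ∀ (k : ℤ), ∀ t ∈ f.T, ∀ ε > 0, ∀ᶠ n in (hyperfilter ℕ : Filter ℕ), ∀ z ∈ t.2,
      ‖pull E m (fun w => (g ^ k) (t.1.symm w)) (S n) z -
        pull E m (fun w => (g ^ k) (t.1.symm w)) τ z‖ ≤ ε := by
    intro k x hx ε hε
    obtain ⟨e'', he'', hta, hsy, -, -⟩ := (hg.zpow k).exists_chart (f.atl x hx)
    have hfun : (fun w => (g ^ k) (x.1.symm w)) = (e''.symm : E → M) :=
      (funext hsy).symm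
    rw [hfun]
    filter_upwards [hτ3 e'' he'' _ (hta ▸ f.sub x hx) (f.cpt x hx) ε hε] with n hn z hz
    have h1 := hn z hz
    rw [pull_sub] at h1
    exact h1
  refine ⟨τ, hτ1, ?_, ?_⟩
  · -- the limit is nonzero
    intro h0
    have h1 : ∀ᶠ n in (hyperfilter ℕ : Filter ℕ), ∀ t ∈ f.T, ∀ z ∈ t.2,
        ‖pull E m (fun w => (g ^ (0 : ℤ)) (t.1.symm w)) (S n) z -
          pull E m (fun w => (g ^ (0 : ℤ)) (t.1.symm w)) τ z‖ ≤ 1 / 4 :=
      (Finset.eventually_all f.T).2 fun t ht => hconv 0 t ht _ (by norm_num)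
    obtain ⟨n, hn⟩ := h1.exists
    have hQ : Nonempty Q := by
      by_contra hcon
      rw [not_nonempty_iff] at hcon
      have : N (κ n) = 0 := Real.iSup_of_isEmpty _
      have h2 := hκpos n
      rw [this] at h2
      exact lt_irrefl _ h2
    obtain ⟨q, hq⟩ := exists_lt_of_lt_ciSup (show N (κ n) / 2 < ⨆ q : Q, cc (κ n) q from
      half_lt_self (hκpos n))
    have h3 := hn _ q.2.1 _ q.2.2
    have h4 : pull E m (fun w => (g ^ (0 : ℤ)) (q.1.1.1.symm w)) τ q.1.2 = 0 := by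
      rw [h0]; simp [pull]
    rw [h4, sub_zero, hcoef, add_zero, inv_mul_le_iff₀ (hκpos n)] at h3
    have h5 := hκpos n
    linarith
  · intro t ht
    refine ⟨D, fun k z hz => ?_⟩
    refine le_of_forall_pos_le_add fun ε hε => ?_
    obtain ⟨n, hn1, hn2⟩ := ((hconv k t ht ε hε).and
      (hUne (eventually_ge_atTop (k₁ + k.natAbs)))).exists
    have h1 := hcoef' n k ⟨(t, z), ht, hz⟩ hn2
    have h2 := hn1 z hz
    have h3 : pull E m (fun w => (g ^ k) (t.1.symm w)) τ z =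
        pull E m (fun w => (g ^ k) (t.1.symm w)) (S n) z -
        (pull E m (fun w => (g ^ k) (t.1.symm w)) (S n) z -
          pull E m (fun w => (g ^ k) (t.1.symm w)) τ z) := by ring
    rw [h3]
    refine (norm_sub_le _ _).trans (add_le_add (h1.trans ?_) h2)
    exact pow_le_pow_right₀ hD1 (by omega)

end

end Vale.Agent.P267.H178
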