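import Mathlib
import Vale.Agent.P267.H178.Main

set_option linter.all false

open Filter Metric Set Topology
open scoped Manifold ContDiff

namespace Vale.Agent.P267.H178

section
variable {E : Type*} [NormedAddCommGroup E] [NormedSpace ℂ E]
variable {M : Type*} [TopologicalSpace M] [ChartedSpace E M]
variable {N : Type*} [TopologicalSpace N] [ChartedSpace E N]

theorem pull_zero_weight (f : N → M) (s : M → ℂ) (x : N) : pull E 0 f s x = s (f x) := by
  simp [pull]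

theorem holSec_zero_iff [IsManifold 𝓘(ℂ, E) ω M] {W : Set M} (hW : IsOpen W) (s : M → ℂ) :
    HolSec E 0 W s ↔ MDifferentiableOn 𝓘(ℂ, E) 𝓘(ℂ, ℂ) s W := by
  have hp : ∀ e : OpenPartialHomeomorph M E, pull E 0 e.symm s = s ∘ e.symm := fun e => by
    ext z; exact pull_zero_weight _ _ _
  constructor
  · intro h x hx
    have he := IsManifold.chart_mem_maximalAtlas (I := 𝓘(ℂ, E)) (n := ω) x
    have h1 := h _ he
    rw [hp] at h1
    set e := chartAt E x with hedef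
    have hxs : x ∈ e.source := mem_chart_source E x
    have hopen : IsOpen (e.target ∩ e.symm ⁻¹' W) := e.symm.isOpen_inter_preimage hW
    have h2 : DifferentiableAt ℂ (s ∘ e.symm) (e x) :=
      h1.differentiableAt (hopen.mem_nhds ⟨e.map_source hxs, by
        rw [mem_preimage, e.left_inv hxs]; exact hx⟩)
    have h3 : MDifferentiableAt 𝓘(ℂ, E) 𝓘(ℂ, ℂ) (s ∘ e.symm) (e x) :=
      h2.mdifferentiableAt
    have h4 : MDifferentiableAt 𝓘(ℂ, E) 𝓘(ℂ, ℂ) ((s ∘ e.symm) ∘ e) x :=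
      h3.comp x (mdiff_chart he hxs)
    have h5 : s =ᶠ[𝓝 x] (s ∘ e.symm) ∘ e := by
      filter_upwards [e.open_source.mem_nhds hxs] with y hy
      simp only [Function.comp, e.left_inv hy]
    exact (h4.congr_of_eventuallyEq h5).mdifferentiableWithinAt
  · intro h e he
    rw [hp]
    intro z hz
    have h1 : MDifferentiableAt 𝓘(ℂ, E) 𝓘(ℂ, ℂ) s (e.symm z) :=
      (h _ hz.2).mdifferentiableAt (hW.mem_nhds hz.2)
    have h2 : MDifferentiableAt 𝓘(ℂ, E) 𝓘(ℂ, ℂ) (s ∘ e.symm) z := h1.comp z (mdiff_symm he hz.1)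
    exact (mdifferentiableAt_iff_differentiableAt.1 h2).differentiableWithinAt

end

section
variable {E : Type*} [NormedAddCommGroup E] [NormedSpace ℂ E] [FiniteDimensional ℂ E]
variable {X : Type*} [TopologicalSpace X] [ChartedSpace E X]
variable {M : Type*} [TopologicalSpace M] [ChartedSpace E M] [IsManifold 𝓘(ℂ, E) ω M]

/-- functions vanishing at a base point -/
def basedFun (E : Type*) [NormedAddCommGroup E] [NormedSpace ℂ E]
    {M : Type*} [TopologicalSpace M] [ChartedSpace E M] (x₀ : M) : Submodule ℂ (M → ℂ) where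
  carrier := {t | HolSec E 0 univ t ∧ t x₀ = 0}
  zero_mem' := ⟨(globalSec E M 0).zero_mem, rfl⟩
  add_mem' := by
    rintro s t ⟨hs, hs'⟩ ⟨ht, ht'⟩
    exact ⟨(globalSec E M 0).add_mem hs ht, by simp [hs', ht']⟩
  smul_mem' := by
    rintro c s ⟨hs, hs'⟩
    exact ⟨(globalSec E M 0).smul_mem c hs, by simp [hs']⟩

theorem HolSec.const (c : ℂ) : HolSec E 0 (univ : Set M) (fun _ => c) := by
  intro e he
  have : H178.pull E 0 e.symm (fun _ : M => c) = fun _ => c := by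
    ext z; exact pull_zero_weight _ _ _
  rw [this]
  exact differentiableOn_const _

theorem HolSec.comp_sub {s : M → ℂ} (hs : HolSec E 0 univ s) {f : Equiv.Perm M} (hf : Bih E f)
    (c : ℂ) : HolSec E 0 univ (fun x => s (f x) - c) := by
  have h1 : HolSec E 0 univ (H178.pull E 0 f s) := hs.pull hf
  have h2 : H178.pull E 0 f s = fun x => s (f x) := by
    ext x; exact pull_zero_weight _ _ _
  rw [h2] at h1
  exact (globalSec E M 0).sub_mem h1 (HolSec.const c)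

/-- the action on functions modulo constants -/
noncomputable def actB {g : Equiv.Perm M} (hg : Bih E g) (x₀ : M) :
    basedFun E x₀ ≃ₗ[ℂ] basedFun E x₀ where
  toFun s := ⟨fun x => (s : M → ℂ) (g x) - (s : M → ℂ) (g x₀),
    HolSec.comp_sub s.2.1 hg _, by simp⟩
  invFun s := ⟨fun x => (s : M → ℂ) ((g⁻¹ : Equiv.Perm M) x) - (s : M → ℂ) ((g⁻¹ : Equiv.Perm M) x₀),
    HolSec.comp_sub s.2.1 hg.inv _, by simp⟩
  map_add' s t := by
    apply Subtype.ext; ext x
    simp only [Submodule.coe_add, Pi.add_apply]; ring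
  map_smul' c s := by
    apply Subtype.ext; ext x
    simp only [Submodule.coe_smul, Pi.smul_apply, smul_eq_mul, RingHom.id_apply]; ring
  left_inv s := by
    apply Subtype.ext; ext x
    have h0 : (s : M → ℂ) x₀ = 0 := s.2.2
    have h1 : ∀ y, g ((g⁻¹ : Equiv.Perm M) y) = y := fun y => g.apply_symm_apply y
    simp only [h0, h1]; ring
  right_inv s := by
    apply Subtype.ext; ext x
    have h0 : (s : M → ℂ) x₀ = 0 := s.2.2
    have h1 : ∀ y, (g⁻¹ : Equiv.Perm M) (g y) = y := fun y => g.symm_apply_apply y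
    simp only [h0, h1]; ring

theorem actB_zpow {g : Equiv.Perm M} (hg : Bih E g) (x₀ : M) (k : ℤ) (s : basedFun E x₀) (x : M) :
    ((((actB hg x₀) ^ k) s : basedFun E x₀) : M → ℂ) x =
      (s : M → ℂ) ((g ^ k) x) - (s : M → ℂ) ((g ^ k) x₀) := by
  induction k using Int.induction_on generalizing s with
  | zero =>
    have h0 : (s : M → ℂ) x₀ = 0 := s.2.2
    simp [h0]
  | succ i ih =>
    rw [zpow_add_one]
    show ((((actB hg x₀) ^ (i : ℤ)) (actB hg x₀ s) : basedFun E x₀) : M → ℂ) x = _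
    rw [ih]
    show ((s : M → ℂ) (g ((g ^ (i : ℤ)) x)) - (s : M → ℂ) (g x₀)) -
      ((s : M → ℂ) (g ((g ^ (i : ℤ)) x₀)) - (s : M → ℂ) (g x₀)) = _
    have h1 : ∀ y, g ((g ^ (i : ℤ)) y) = (g ^ ((i : ℤ) + 1)) y := fun y => by
      rw [add_comm, zpow_add, zpow_one]; rfl
    rw [h1, h1]; ring
  | pred i ih =>
    rw [zpow_sub_one]
    show ((((actB hg x₀) ^ (-(i : ℤ))) ((actB hg x₀).symm s) : basedFun E x₀) : M → ℂ) x = _
    rw [ih]
    show ((s : M → ℂ) ((g⁻¹ : Equiv.Perm M) ((g ^ (-(i : ℤ))) x)) -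
        (s : M → ℂ) ((g⁻¹ : Equiv.Perm M) x₀)) -
      ((s : M → ℂ) ((g⁻¹ : Equiv.Perm M) ((g ^ (-(i : ℤ))) x₀)) -
        (s : M → ℂ) ((g⁻¹ : Equiv.Perm M) x₀)) = _
    have h1 : ∀ y, (g⁻¹ : Equiv.Perm M) ((g ^ (-(i : ℤ))) y) = (g ^ (-(i : ℤ) - 1)) y := fun y => by
      rw [sub_eq_add_neg, add_comm, zpow_add, zpow_neg_one]; rfl
    rw [h1, h1]; ring

/-- A function with controlled increments along the orbit of the base point. -/
theorem orbit_bound {g : Equiv.Perm M} {x₀ : M} {t : M → ℂ} {b : ℤ → ℝ} (h0 : t x₀ = 0)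
    (hb : ∀ k : ℤ, ‖t ((g ^ (k + 1)) x₀) - t ((g ^ k) x₀)‖ ≤ b k) (k : ℤ) :
    ‖t ((g ^ k) x₀)‖ ≤ ∑ i ∈ Finset.range k.natAbs, (|b i| + |b (-((i : ℤ) + 1))|) := by
  have key : ∀ n : ℕ,
      ‖t ((g ^ (n : ℤ)) x₀)‖ ≤ ∑ i ∈ Finset.range n, (|b i| + |b (-((i : ℤ) + 1))|) ∧
      ‖t ((g ^ (-(n : ℤ))) x₀)‖ ≤ ∑ i ∈ Finset.range n, (|b i| + |b (-((i : ℤ) + 1))|) := by
    intro n
    induction n with
    | zero => simp [h0]
    | succ n ih =>
      obtain ⟨ih1, ih2⟩ := ih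
      rw [Finset.sum_range_succ]
      constructor
      · have h1 := hb n
        have h2 : ‖t ((g ^ ((n : ℤ) + 1)) x₀)‖ ≤ ‖t ((g ^ ((n : ℤ) + 1)) x₀) - t ((g ^ (n : ℤ)) x₀)‖
            + ‖t ((g ^ (n : ℤ)) x₀)‖ := by
          simpa using norm_add_le (t ((g ^ ((n : ℤ) + 1)) x₀) - t ((g ^ (n : ℤ)) x₀))
            (t ((g ^ (n : ℤ)) x₀))
        have h3 := le_abs_self (b n)
        have h4 := abs_nonneg (b (-((n : ℤ) + 1)))
        push_cast
        linarith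
      · have h1 := hb (-((n : ℤ) + 1))
        have h5 : -((n : ℤ) + 1) + 1 = -(n : ℤ) := by ring
        rw [h5] at h1
        have h2 : ‖t ((g ^ (-((n : ℤ) + 1))) x₀)‖ ≤
            ‖t ((g ^ (-(n : ℤ))) x₀) - t ((g ^ (-((n : ℤ) + 1))) x₀)‖
            + ‖t ((g ^ (-(n : ℤ))) x₀)‖ := by
          have h6 := norm_sub_le (t ((g ^ (-(n : ℤ))) x₀) - t ((g ^ (-((n : ℤ) + 1))) x₀))
            (t ((g ^ (-(n : ℤ))) x₀))
          have h7 : t ((g ^ (-(n : ℤ))) x₀) - t ((g ^ (-((n : ℤ) + 1))) x₀) -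
            t ((g ^ (-(n : ℤ))) x₀) = - t ((g ^ (-((n : ℤ) + 1))) x₀) := by ring
          rwa [h7, norm_neg] at h6
        have h3 := le_abs_self (b (-((n : ℤ) + 1)))
        have h4 := abs_nonneg (b n)
        push_cast
        linarith
  rcases Int.natAbs_eq k with h | h
  · have := (key k.natAbs).1
    rw [← h] at this
    exact this
  · have := (key k.natAbs).2
    rw [← h] at this
    exact this

/-- A nonconstant function of exponential growth gives a function which is automorphic up to an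
additive constant. -/
theorem eigen_fun_of_growth {g : Equiv.Perm M} (hg : Bih E g) (f : Frame E g) {x₀ : M}
    (hx₀ : ∃ t ∈ f.T, ∃ z ∈ t.2, t.1.symm z = x₀) (hx₁ : ∃ t ∈ f.T, ∃ z ∈ t.2, t.1.symm z = g x₀)
    {h : M → ℂ} (hh : HolSec E 0 univ h) (hne : ∃ x, h x ≠ h x₀)
    (hgrow : ∀ t ∈ f.T, ∃ C : ℝ, ∀ (k : ℤ), ∀ z ∈ t.2,
          ‖h ((g ^ k) (t.1.symm z))‖ ≤ C ^ (k.natAbs + 1)) :
    ∃ (l : ℂ) (τ : M → ℂ) (c : ℂ), l ≠ 0 ∧ HolSec E 0 univ τ ∧ τ x₀ = 0 ∧ τ ≠ 0 ∧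
      ∀ x, τ (g x) = l * τ x + c := by
  classical
  haveI : ProperSpace E := FiniteDimensional.proper ℂ E
  let Q := {q : (OpenPartialHomeomorph M E × Set E) × E // q.1 ∈ f.T ∧ q.2 ∈ q.1.2}
  let ev : Q → basedFun E x₀ →ₗ[ℂ] ℂ := fun q =>
    { toFun := fun s => (s : M → ℂ) (q.1.1.1.symm q.1.2)
      map_add' := fun s t => rfl
      map_smul' := fun c s => rfl }
  have hevk : ∀ (q : Q) (k : ℤ) (t : basedFun E x₀), ev q (((actB hg x₀) ^ k) t) =
      (t : M → ℂ) ((g ^ k) (q.1.1.1.symm q.1.2)) - (t : M → ℂ) ((g ^ k) x₀) :=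
    fun q k t => actB_zpow hg x₀ k t _
  obtain ⟨t₀, ht₀, z₀, hz₀, hz₀x⟩ := hx₀
  obtain ⟨t₁, ht₁, z₁, hz₁, hz₁x⟩ := hx₁
  have hstep : ∀ (k : ℤ) (t : basedFun E x₀), ev ⟨(t₁, z₁), ht₁, hz₁⟩ (((actB hg x₀) ^ k) t) =
      (t : M → ℂ) ((g ^ (k + 1)) x₀) - (t : M → ℂ) ((g ^ k) x₀) := by
    intro k t
    rw [hevk]
    simp only [hz₁x]
    have : (g ^ k) (g x₀) = (g ^ (k + 1)) x₀ := by rw [zpow_add, zpow_one]; rfl
    rw [this]
  choose! Cx hCx using hgrow
  obtain ⟨C, hC1, hCC⟩ : ∃ C : ℝ, 1 ≤ C ∧ ∀ x ∈ f.T, |Cx x| ≤ C := by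
    refine ⟨1 + ∑ x ∈ f.T, |Cx x|, le_add_of_nonneg_right (Finset.sum_nonneg fun _ _ => abs_nonneg _),
      fun x hx => ?_⟩
    have := Finset.single_le_sum (f := fun x => |Cx x|) (fun _ _ => abs_nonneg _) hx
    linarith
  have hgr0 : ∀ (k : ℤ) (t) (ht : t ∈ f.T) (z) (hz : z ∈ t.2),
      ‖h ((g ^ k) (t.1.symm z))‖ ≤ C ^ (k.natAbs + 1) := by
    intro k t ht z hz
    refine (hCx t ht k z hz).trans ?_
    exact (le_abs_self _).trans (by
        rw [abs_pow]; exact pow_le_pow_left₀ (abs_nonneg _) (hCC _ ht) _)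
  have hsep : ∀ t : basedFun E x₀,
      (∀ (k : ℤ) (q : Q), ev q (((actB hg x₀) ^ k) t) = 0) → t = 0 := by
    intro t ht
    have h1 : ∀ k : ℤ, (t : M → ℂ) ((g ^ k) x₀) = 0 := by
      intro k
      have h2 := orbit_bound (g := g) (x₀ := x₀) (t := (t : M → ℂ)) (b := fun _ => 0) t.2.2
        (fun k => by rw [← hstep k t, ht, norm_zero]) k
      simpa using h2
    apply Subtype.ext
    ext y
    obtain ⟨k, x, hx, y', hy', hyb, rfl⟩ := f.cov y
    have h2 := ht k ⟨(x, x.1 y'), hx, interior_subset hyb⟩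
    rw [hevk, h1, sub_zero] at h2
    simp only [x.1.left_inv hy'] at h2
    exact h2
  have hmon : ∀ (σ : ℕ → basedFun E x₀) (B : ℤ → ℝ),
      (∀ n k q, ‖ev q (((actB hg x₀) ^ k) (σ n))‖ ≤ B k) →
      ∃ τ : basedFun E x₀, ∀ (k : ℤ), ∀ ε > 0, ∀ᶠ n in (hyperfilter ℕ : Filter ℕ),
        ∀ q, ‖ev q (((actB hg x₀) ^ k) (σ n - τ))‖ ≤ ε := by
    intro σ B hB
    have horb : ∀ n (k : ℤ), ‖(σ n : M → ℂ) ((g ^ k) x₀)‖ ≤
        ∑ i ∈ Finset.range k.natAbs, (|B i| + |B (-((i : ℤ) + 1))|) := fun n k =>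
      orbit_bound (σ n).2.2 (fun k => by rw [← hstep k (σ n)]; exact hB n k _) k
    obtain ⟨τ, hτ1, hτ2, hτ3⟩ := montel_sec (W := fun _ : ℕ => (univ : Set M)) (hyperfilter ℕ) 0
      (fun n => (σ n).2.1) (fun x => ⟨univ, univ_mem, Eventually.of_forall fun n => subset_rfl⟩) (by
        intro y
        obtain ⟨k, x, hx, y', hy', hyb, rfl⟩ := f.cov y
        obtain ⟨e'', he'', hta, hsy, hso, hap⟩ := (hg.zpow k).exists_chart (f.atl x hx)
        have hsymm : (g ^ k).symm ((g ^ k) y') = y' := (g ^ k).symm_apply_apply y'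
        have hmem : (g ^ k) y' ∈ e''.source := by
          rw [hso, mem_preimage, hsymm]; exact hy'
        refine ⟨e'', he'', hmem, e''.source ∩ e'' ⁻¹' interior x.2,
          (e''.isOpen_inter_preimage isOpen_interior).mem_nhds ⟨hmem, ?_⟩,
          B k + ∑ i ∈ Finset.range k.natAbs, (|B i| + |B (-((i : ℤ) + 1))|), ?_⟩
        · rw [mem_preimage, hap, hsymm]; exact hyb
        · refine Eventually.of_forall fun n w hw hw' => ?_
          have h1 := hB n k ⟨(x, e'' w), hx, interior_subset hw.2⟩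
          rw [hevk] at h1
          simp only [← hsy] at h1
          rw [pull_zero_weight]
          have h2 := horb n k
          have h3 : (σ n : M → ℂ) (e''.symm (e'' w)) =
            ((σ n : M → ℂ) (e''.symm (e'' w)) - (σ n : M → ℂ) ((g ^ k) x₀)) +
              (σ n : M → ℂ) ((g ^ k) x₀) := by ring
          rw [h3]
          exact (norm_add_le _ _).trans (add_le_add h1 h2))
    have hτ0 : τ x₀ = 0 := by
      have h1 : Tendsto (fun n => (σ n : M → ℂ) x₀) (hyperfilter ℕ : Filter ℕ) (𝓝 (τ x₀)) := hτ2 x₀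
      have h2 : (fun n => (σ n : M → ℂ) x₀) = fun _ => 0 := funext fun n => (σ n).2.2
      rw [h2] at h1
      exact tendsto_nhds_unique h1 tendsto_const_nhds
    refine ⟨⟨τ, hτ1, hτ0⟩, fun k ε hε => ?_⟩
    have h1 : ∀ x ∈ f.T, ∀ᶠ n in (hyperfilter ℕ : Filter ℕ),
        ∀ z ∈ x.2, ‖(σ n : M → ℂ) ((g ^ k) (x.1.symm z)) - τ ((g ^ k) (x.1.symm z))‖ ≤ ε / 2 := by
      intro x hx
      obtain ⟨e'', he'', hta, hsy, -, -⟩ := (hg.zpow k).exists_chart (f.atl x hx)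
      have h2 := hτ3 e'' he'' _ (hta ▸ f.sub x hx) (f.cpt x hx) (ε / 2) (by positivity)
      filter_upwards [h2] with n hn z hz
      have h3 := hn z hz
      rw [pull_zero_weight, hsy] at h3
      exact h3
    have h2 := (Finset.eventually_all f.T).2 h1
    filter_upwards [h2] with n hn q
    rw [hevk]
    have h3 := hn _ q.2.1 _ q.2.2
    have h4 := hn _ ht₀ _ hz₀
    rw [hz₀x] at h4
    rw [Submodule.coe_sub]
    simp only [Pi.sub_apply]
    have h5 : ∀ a b c d : ℂ, a - b - (c - d) = (a - b) - (c - d) := fun _ _ _ _ => rfl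
    refine (norm_sub_le _ _).trans ?_
    linarith
  have hgr : ∀ (k : ℤ) (q : Q),
      ‖ev q (((actB hg x₀) ^ k) (⟨fun x => h x - h x₀, HolSec.comp_sub hh (bihGroup E M).one_mem _,
        sub_self _⟩ : basedFun E x₀))‖ ≤ (2 * C) * C ^ k.natAbs := by
    intro k q
    rw [hevk]
    simp only
    have h1 := hgr0 k _ q.2.1 _ q.2.2
    have h2 := hgr0 k _ ht₀ _ hz₀
    rw [hz₀x] at h2
    have h3 : h ((g ^ k) (q.1.1.1.symm q.1.2)) - h x₀ - (h ((g ^ k) x₀) - h x₀) =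
      h ((g ^ k) (q.1.1.1.symm q.1.2)) - h ((g ^ k) x₀) := by ring
    rw [h3]
    refine (norm_sub_le _ _).trans ?_
    rw [pow_succ'] at h1 h2
    linarith
  obtain ⟨l, τ, hl, hτ0, hτ⟩ := exists_eigen (actB hg x₀) ev hsep hmon hC1 (by
    intro h0
    obtain ⟨x, hx⟩ := hne
    apply hx
    have := congrFun (congrArg Subtype.val h0) x
    exact sub_eq_zero.1 this) hgr
  refine ⟨l, τ, (τ : M → ℂ) (g x₀), hl, τ.2.1, τ.2.2, fun h => hτ0 (Subtype.ext h), fun x => ?_⟩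
  have h1 := congrFun (congrArg Subtype.val hτ) x
  have h2 : (τ : M → ℂ) (g x) - (τ : M → ℂ) (g x₀) = l * (τ : M → ℂ) x := h1
  rw [← h2]; ring

end

end Vale.Agent.P267.H178
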