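import Mathlib
import Vale.Agent.P267.H178.Fun

set_option linter.all false

open Filter Metric Set Topology
open scoped Manifold ContDiff

namespace Vale.Agent.P267.H178

section
variable {E : Type*} [NormedAddCommGroup E] [NormedSpace ℂ E] [FiniteDimensional ℂ E]
variable {M : Type*} [TopologicalSpace M] [ChartedSpace E M] [IsManifold 𝓘(ℂ, E) ω M]

theorem norm_zpow_invariant {g : Equiv.Perm M} {F : M → ℂ} (hF : ∀ x, ‖F (g x)‖ = ‖F x‖)
    (k : ℤ) (x : M) : ‖F ((g ^ k) x)‖ = ‖F x‖ := by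
  induction k using Int.induction_on generalizing x with
  | zero => simp
  | succ i ih =>
    have : (g ^ ((i : ℤ) + 1)) x = (g ^ (i : ℤ)) (g x) := by rw [zpow_add, zpow_one]; rfl
    rw [this, ih, hF]
  | pred i ih =>
    have : (g ^ (-(i : ℤ) - 1)) x = (g ^ (-(i : ℤ))) ((g⁻¹ : Equiv.Perm M) x) := by
      rw [sub_eq_add_neg, zpow_add, zpow_neg_one]; rfl
    rw [this, ih, ← hF]
    congr 2
    exact g.apply_symm_apply x

/-- A holomorphic function whose modulus is invariant under `g` is constant. -/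
theorem const_of_norm_invariant [PreconnectedSpace M] {g : Equiv.Perm M} (f : Frame E g)
    {F : M → ℂ} (hF : MDifferentiable 𝓘(ℂ, E) 𝓘(ℂ, ℂ) F) (hinv : ∀ x, ‖F (g x)‖ = ‖F x‖)
    (x y : M) : F x = F y := by
  haveI : IsManifold 𝓘(ℂ, E) 1 M := IsManifold.of_le (n := ω) (by simp)
  let K : Set M := ⋃ t ∈ f.T, t.1.symm '' t.2
  have hK : IsCompact K := f.T.isCompact_biUnion fun t ht =>
    (f.cpt t ht).image_of_continuousOn (t.1.continuousOn_symm.mono (f.sub t ht))
  have hcov : ∀ y : M, ∃ (k : ℤ), ∃ y' ∈ K, (g ^ k) y' = y := by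
    intro y
    obtain ⟨k, t, ht, y', hy', hyb, h⟩ := f.cov y
    exact ⟨k, y', mem_biUnion ht ⟨t.1 y', interior_subset hyb, t.1.left_inv hy'⟩, h⟩
  obtain ⟨k₀, y₀, hy₀, -⟩ := hcov x
  obtain ⟨m, hm, hmax⟩ := hK.exists_isMaxOn ⟨y₀, hy₀⟩ hF.continuous.norm.continuousOn
  have hmax' : IsMaxOn (norm ∘ F) univ m := by
    intro w _
    obtain ⟨k, w', hw', rfl⟩ := hcov w
    show ‖F ((g ^ k) w')‖ ≤ ‖F m‖
    rw [norm_zpow_invariant hinv]
    exact hmax hw'
  have h1 := hF.mdifferentiableOn (s := univ) |>.eqOn_of_isPreconnected_of_isMaxOn_norm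
    isPreconnected_univ isOpen_univ (mem_univ m) hmax'
  rw [h1 (mem_univ x), h1 (mem_univ y)]
  rfl

theorem automorphic_of_affine [PreconnectedSpace M] {g : Equiv.Perm M} (f : Frame E g)
    {l c : ℂ} (hl : l ≠ 0) {τ : M → ℂ} (hτ : MDifferentiable 𝓘(ℂ, E) 𝓘(ℂ, ℂ) τ) {x₀ : M}
    (h0 : τ x₀ = 0) (hne : τ ≠ 0) (haff : ∀ x, τ (g x) = l * τ x + c) :
    ∃ (l' : ℂ) (H : M → ℂ), l' ≠ 0 ∧ ‖l'‖ ≠ 1 ∧ MDifferentiable 𝓘(ℂ, E) 𝓘(ℂ, ℂ) H ∧
      (∃ x y, H x ≠ H y) ∧ ∀ x, H (g x) = l' * H x := by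
  obtain ⟨x₁, hx₁⟩ : ∃ x₁, τ x₁ ≠ 0 := by
    by_contra hcon
    push Not at hcon
    exact hne (funext hcon)
  by_cases hl1 : l = 1
  · exfalso
    subst hl1
    simp only [one_mul] at haff
    by_cases hc : c = 0
    · have h1 := const_of_norm_invariant f hτ (fun x => by rw [haff, hc, add_zero]) x₁ x₀
      exact hx₁ (h1.trans h0)
    · -- use the exponentials of multiples of `τ / c`
      have key : ∀ (s : ℝ) (x y : M), Complex.exp (-(Complex.I * s) * (τ x / c)) =
          Complex.exp (-(Complex.I * s) * (τ y / c)) := by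
        intro s x y
        have hd : MDifferentiable 𝓘(ℂ, E) 𝓘(ℂ, ℂ)
            (fun x => Complex.exp (-(Complex.I * s) * (τ x / c))) := by
          have hd2 : Differentiable ℂ (fun w : ℂ => Complex.exp (-(Complex.I * s) * (w / c))) := by
            fun_prop
          intro x
          have h3 : MDifferentiableAt 𝓘(ℂ, ℂ) 𝓘(ℂ, ℂ)
              (fun w : ℂ => Complex.exp (-(Complex.I * s) * (w / c))) (τ x) :=
            (hd2 (τ x)).mdifferentiableAt
          exact h3.comp x (hτ x)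
        refine const_of_norm_invariant f hd (fun x => ?_) x y
        rw [haff, Complex.norm_exp, Complex.norm_exp]
        congr 1
        have h2 : -(Complex.I * s) * ((τ x + c) / c) = -(Complex.I * s) * (τ x / c) +
            (-(Complex.I * s)) := by
          field_simp
          ring
        rw [h2, Complex.add_re]
        simp
      have k1 := key 1 x₁ x₀
      rw [h0, zero_div, mul_zero, Complex.exp_zero] at k1
      -- the quotient `τ x₁ / c` is real
      have hre : (τ x₁ / c).im = 0 := by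
        have h2 : ‖Complex.exp (-(Complex.I * ((1 : ℝ) : ℂ)) * (τ x₁ / c))‖ = 1 := by
          rw [k1, norm_one]
        rw [Complex.norm_exp, Real.exp_eq_one_iff] at h2
        simpa using h2
      set d := (τ x₁ / c).re with hd
      have hdd : τ x₁ / c = (d : ℂ) := Complex.ext rfl (by rw [hre, Complex.ofReal_im])
      have hd0 : d ≠ 0 := by
        intro h
        rw [h, Complex.ofReal_zero, div_eq_zero_iff] at hdd
        rcases hdd with h | h
        · exact hx₁ h
        · exact hc h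
      have k2 := key (Real.pi / d) x₁ x₀
      rw [h0, zero_div, mul_zero, Complex.exp_zero, hdd] at k2
      have h3 : -(Complex.I * ((Real.pi / d : ℝ) : ℂ)) * (d : ℂ) = -(Real.pi * Complex.I) := by
        push_cast
        have : (d : ℂ) ≠ 0 := by exact_mod_cast hd0
        field_simp
      rw [h3, Complex.exp_neg, Complex.exp_pi_mul_I] at k2
      norm_num at k2
  · have hl1' : l - 1 ≠ 0 := sub_ne_zero.2 hl1
    have hH : MDifferentiable 𝓘(ℂ, E) 𝓘(ℂ, ℂ) (fun x => τ x + c / (l - 1)) := by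
      have hd2 : Differentiable ℂ (fun w : ℂ => w + c / (l - 1)) := by fun_prop
      intro x
      have h3 : MDifferentiableAt 𝓘(ℂ, ℂ) 𝓘(ℂ, ℂ) (fun w : ℂ => w + c / (l - 1)) (τ x) :=
        (hd2 (τ x)).mdifferentiableAt
      exact h3.comp x (hτ x)
    have haut : ∀ x, τ (g x) + c / (l - 1) = l * (τ x + c / (l - 1)) := by
      intro x
      rw [haff]
      field_simp
      ring
    have hnc : τ x₁ + c / (l - 1) ≠ τ x₀ + c / (l - 1) := by
      rw [h0]
      intro h
      exact hx₁ (add_right_cancel h)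
    refine ⟨l, fun x => τ x + c / (l - 1), hl, ?_, hH, ⟨x₁, x₀, hnc⟩, haut⟩
    intro hn
    exact hnc (const_of_norm_invariant f hH (fun x => by rw [haut, norm_mul, hn, one_mul]) x₁ x₀)

end

end Vale.Agent.P267.H178
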