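import Mathlib
import Vale.Agent.P267.H178.Fun2
import Vale.Agent.P267.H178.EndS

set_option linter.all false

open Filter Metric Set Topology
open scoped Manifold ContDiff

namespace Vale.Agent.P267.H178

/-- **Tame windows of functions.**  The analogue of `TameSec` for holomorphic functions. -/
def TameFun (E : Type*) [NormedAddCommGroup E] [NormedSpace ℂ E]
    {M : Type*} [TopologicalSpace M] [ChartedSpace E M] (g : Equiv.Perm M)
    (W : ℕ → Set M) (h : ℕ → M → ℂ) : Prop :=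
  (∀ n, IsOpen (W n) ∧ MDifferentiableOn 𝓘(ℂ, E) 𝓘(ℂ, ℂ) (h n) (W n)) ∧
  (∀ K : Set M, IsCompact K → ∀ᶠ n in atTop, K ⊆ W n) ∧
  ∀ K : Set M, IsCompact K → ∃ C : ℝ, ∀ (n : ℕ) (k : ℤ), (∀ x ∈ K, (g ^ k) x ∈ W n) →
    ∀ x ∈ K, ‖h n ((g ^ k) x)‖ ≤ C ^ (k.natAbs + 1)

/-- **Nonconstant functions of finite exponential type over one end.**  The analogue of `EndSec`
for holomorphic functions, the lower bound being required for the oscillation. -/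
def EndFun (E : Type*) [NormedAddCommGroup E] [NormedSpace ℂ E]
    {M : Type*} [TopologicalSpace M] [ChartedSpace E M] (g : Equiv.Perm M)
    (V : Set M) (h : M → ℂ) : Prop :=
  IsOpen V ∧ MDifferentiableOn 𝓘(ℂ, E) 𝓘(ℂ, ℂ) h V ∧
  (∀ K : Set M, IsCompact K → ∀ᶠ k : ℕ in atTop, ∀ x ∈ K, (g ^ k) x ∈ V) ∧
  (∀ K : Set M, IsCompact K → ∃ C : ℝ, ∀ k : ℕ, (∀ x ∈ K, (g ^ k) x ∈ V) →
    ∀ x ∈ K, ‖h ((g ^ k) x)‖ ≤ C ^ (k + 1)) ∧
  ∃ K : Set M, IsCompact K ∧ ∃ c > (0 : ℝ), ∃ᶠ k : ℕ in atTop,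
    ∃ x ∈ K, ∃ y ∈ K, c ^ (k + 1) ≤ ‖h ((g ^ k) x) - h ((g ^ k) y)‖

section
variable {E : Type*} [NormedAddCommGroup E] [NormedSpace ℂ E] [FiniteDimensional ℂ E]
variable {M : Type*} [TopologicalSpace M] [ChartedSpace E M] [IsManifold 𝓘(ℂ, E) ω M]

theorem TameFun.tameSec {g : Equiv.Perm M} {W : ℕ → Set M} {h : ℕ → M → ℂ}
    (H : TameFun E g W h) : TameSec E g 0 W h := by
  obtain ⟨h1, h2, h3⟩ := H
  refine ⟨fun n => ⟨(h1 n).1, (holSec_zero_iff (h1 n).1 _).2 (h1 n).2⟩, h2, ?_⟩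
  intro e he Z hZ hZc
  obtain ⟨C, hC⟩ := h3 (e.symm '' Z) (hZc.image_of_continuousOn (e.continuousOn_symm.mono hZ))
  refine ⟨C, fun n k hk z hz => ?_⟩
  rw [pull_zero_weight]
  refine hC n k ?_ _ ⟨z, hz, rfl⟩
  rintro _ ⟨w, hw, rfl⟩
  exact hk w hw

/-- truncated version of `orbit_bound` -/
theorem orbit_bound' {g : Equiv.Perm M} {x₀ : M} {t : M → ℂ} {b : ℤ → ℝ} (h0 : t x₀ = 0) (L : ℕ)
    (hb : ∀ k : ℤ, k.natAbs ≤ L → ‖t ((g ^ (k + 1)) x₀) - t ((g ^ k) x₀)‖ ≤ b k) (k : ℤ)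
    (hk : k.natAbs ≤ L) :
    ‖t ((g ^ k) x₀)‖ ≤ ∑ i ∈ Finset.range k.natAbs, (|b i| + |b (-((i : ℤ) + 1))|) := by
  have key : ∀ n : ℕ, n ≤ L →
      ‖t ((g ^ (n : ℤ)) x₀)‖ ≤ ∑ i ∈ Finset.range n, (|b i| + |b (-((i : ℤ) + 1))|) ∧
      ‖t ((g ^ (-(n : ℤ))) x₀)‖ ≤ ∑ i ∈ Finset.range n, (|b i| + |b (-((i : ℤ) + 1))|) := by
    intro n
    induction n with
    | zero => intro _; simp [h0]
    | succ n ih =>
      intro hnL
      obtain ⟨ih1, ih2⟩ := ih (by omega)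
      rw [Finset.sum_range_succ]
      constructor
      · have h1 := hb n (by simp; omega)
        have h2 : ‖t ((g ^ ((n : ℤ) + 1)) x₀)‖ ≤ ‖t ((g ^ ((n : ℤ) + 1)) x₀) - t ((g ^ (n : ℤ)) x₀)‖
            + ‖t ((g ^ (n : ℤ)) x₀)‖ := by
          simpa using norm_add_le (t ((g ^ ((n : ℤ) + 1)) x₀) - t ((g ^ (n : ℤ)) x₀))
            (t ((g ^ (n : ℤ)) x₀))
        have h3 := le_abs_self (b n)
        have h4 := abs_nonneg (b (-((n : ℤ) + 1)))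
        push_cast
        linarith
      · have h1 := hb (-((n : ℤ) + 1)) (by omega)
        have h5 : -((n : ℤ) + 1) + 1 = -(n : ℤ) := by ring
        rw [h5] at h1
        have h2 : ‖t ((g ^ (-((n : ℤ) + 1))) x₀)‖ ≤
            ‖t ((g ^ (-(n : ℤ))) x₀) - t ((g ^ (-((n : ℤ) + 1))) x₀)‖
            + ‖t ((g ^ (-(n : ℤ))) x₀)‖ := by
          have h6 := norm_sub_le (t ((g ^ (-(n : ℤ))) x₀) - t ((g ^ (-((n : ℤ) + 1))) x₀))
            (t ((g ^ (-(n : ℤ))) x₀))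
          have h7 : t ((g ^ (-(n : ℤ))) x₀) - t ((g ^ (-((n : ℤ) + 1))) x₀) -
            t ((g ^ (-(n : ℤ))) x₀) = - t ((g ^ (-((n : ℤ) + 1))) x₀) := by ring
          rwa [h7, norm_neg] at h6
        have h3 := le_abs_self (b (-((n : ℤ) + 1)))
        have h4 := abs_nonneg (b n)
        push_cast
        linarith
  rcases Int.natAbs_eq k with h | h
  · have := (key k.natAbs hk).1
    rw [← h] at this
    exact this
  · have := (key k.natAbs hk).2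
    rw [← h] at this
    exact this

theorem sum_D_le {D : ℝ} (hD : 1 ≤ D) (n : ℕ) :
    D ^ n + ∑ i ∈ Finset.range n, (|D ^ (i : ℤ).natAbs| + |D ^ (-((i : ℤ) + 1)).natAbs|) ≤
      (4 * D) ^ (n + 1) := by
  have hD0 : 0 < D := lt_of_lt_of_le one_pos hD
  have h1 : ∑ i ∈ Finset.range n, (|D ^ (i : ℤ).natAbs| + |D ^ (-((i : ℤ) + 1)).natAbs|) ≤
      ∑ i ∈ Finset.range n, (2 * D ^ n) := by
    refine Finset.sum_le_sum fun i hi => ?_
    rw [Finset.mem_range] at hi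
    rw [abs_of_nonneg (by positivity), abs_of_nonneg (by positivity)]
    have h2 : D ^ (i : ℤ).natAbs ≤ D ^ n := pow_le_pow_right₀ hD (by simp; omega)
    have h3 : D ^ (-((i : ℤ) + 1)).natAbs ≤ D ^ n := pow_le_pow_right₀ hD (by omega)
    linarith
  rw [Finset.sum_const, Finset.card_range, nsmul_eq_mul] at h1
  have h4 : (1 : ℝ) + 2 * n ≤ 4 ^ (n + 1) := by
    have h5 := one_add_mul_le_pow (show (-2 : ℝ) ≤ 3 by norm_num) (n + 1)
    have h6 : (1 : ℝ) + 3 = 4 := by norm_num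
    rw [h6] at h5
    push_cast at h5
    have : (0 : ℝ) ≤ n := Nat.cast_nonneg n
    linarith
  have h5 : D ^ n ≤ D ^ (n + 1) := pow_le_pow_right₀ hD (by omega)
  rw [mul_pow]
  have h6 : (1 + 2 * (n : ℝ)) * D ^ n ≤ 4 ^ (n + 1) * D ^ (n + 1) :=
    mul_le_mul h4 h5 (by positivity) (by positivity)
  linarith

/-- A nonconstant function of finite exponential type over one end has a nonconstant limit of
exponential growth over all of `M`. -/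
theorem EndFun.limit {g : Equiv.Perm M} (hg : Bih E g) {V : Set M} {h : M → ℂ}
    (hV : IsOpen V) (hs : MDifferentiableOn 𝓘(ℂ, E) 𝓘(ℂ, ℂ) h V)
    (hfin : ∀ K : Set M, IsCompact K → ∀ᶠ k : ℕ in atTop, ∀ x ∈ K, (g ^ k) x ∈ V)
    (hup : ∀ K : Set M, IsCompact K → ∃ C : ℝ, ∀ k : ℕ, (∀ x ∈ K, (g ^ k) x ∈ V) →
      ∀ x ∈ K, ‖h ((g ^ k) x)‖ ≤ C ^ (k + 1))
    (f : Frame E g) {x₀ : M} (hx₀ : ∃ t ∈ f.T, ∃ z ∈ t.2, t.1.symm z = x₀)
    (hx₁ : ∃ t ∈ f.T, ∃ z ∈ t.2, t.1.symm z = g x₀)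
    {K₀ : Set M} (hK₀ : ∀ x ∈ K₀, ∃ t ∈ f.T, ∃ z ∈ t.2, t.1.symm z = x)
    {c : ℝ} (hc : 0 < c) (hlow : ∃ᶠ k : ℕ in atTop,
      ∃ x ∈ K₀, ∃ y ∈ K₀, c ^ (k + 1) ≤ ‖h ((g ^ k) x) - h ((g ^ k) y)‖) :
    ∃ τ : M → ℂ, HolSec E 0 univ τ ∧ τ x₀ = 0 ∧ (∃ x, τ x ≠ τ x₀) ∧
      ∀ t ∈ f.T, ∃ C : ℝ, ∀ (k : ℤ), ∀ z ∈ t.2,
          ‖τ ((g ^ k) (t.1.symm z))‖ ≤ C ^ (k.natAbs + 1) := by
  classical
  haveI : ProperSpace E := FiniteDimensional.proper ℂ E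
  have hUne : (hyperfilter ℕ : Filter ℕ) ≤ atTop := by
    rw [← Nat.cofinite_eq_atTop]; exact hyperfilter_le_cofinite
  have hpn : ∀ (k : ℕ) (x : M), (g ^ (k : ℤ)) x = (g ^ k) x := fun k x => by rw [zpow_natCast]
  have hadd : ∀ (i j : ℤ) (x : M), (g ^ i) ((g ^ j) x) = (g ^ (i + j)) x := fun i j x => by
    rw [zpow_add]; rfl
  let Q := {q : (OpenPartialHomeomorph M E × Set E) × E // q.1 ∈ f.T ∧ q.2 ∈ q.1.2}
  let pt : Q → M := fun q => q.1.1.1.symm q.1.2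
  obtain ⟨t₀, ht₀, z₀, hz₀, hz₀x⟩ := hx₀
  obtain ⟨t₁, ht₁, z₁, hz₁, hz₁x⟩ := hx₁
  let q₀ : Q := ⟨(t₀, z₀), ht₀, hz₀⟩
  let q₁ : Q := ⟨(t₁, z₁), ht₁, hz₁⟩
  haveI : Nonempty Q := ⟨q₀⟩
  have hq₀ : pt q₀ = x₀ := hz₀x
  have hq₁ : pt q₁ = g x₀ := hz₁x
  let cc : ℤ → Q → ℝ := fun k q => ‖h ((g ^ k) (pt q)) - h ((g ^ k) x₀)‖
  have hKt : ∀ t ∈ f.T, IsCompact (t.1.symm '' t.2) := fun t ht =>
    (f.cpt t ht).image_of_continuousOn (t.1.continuousOn_symm.mono (f.sub t ht))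
  have hKall : IsCompact (⋃ t ∈ f.T, t.1.symm '' t.2) := f.T.isCompact_biUnion hKt
  have hptK : ∀ q : Q, pt q ∈ ⋃ t ∈ f.T, t.1.symm '' t.2 := fun q =>
    mem_biUnion q.2.1 ⟨q.1.2, q.2.2, rfl⟩
  obtain ⟨k₁, hk₁⟩ := eventually_atTop.1 (hfin _ hKall)
  obtain ⟨C₀, hC₀⟩ := hup _ hKall
  set C : ℝ := 2 * (1 + |C₀|) with hC
  have hC1 : 1 ≤ C := by have := abs_nonneg C₀; linarith
  have hh : ∀ k : ℕ, k₁ ≤ k → ∀ q : Q, ‖h ((g ^ (k : ℤ)) (pt q))‖ ≤ (1 + |C₀|) ^ (k + 1) := by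
    intro k hk q
    rw [hpn]
    refine (hC₀ k (hk₁ k hk) _ (hptK q)).trans ((le_abs_self _).trans ?_)
    rw [abs_pow]
    exact pow_le_pow_left₀ (abs_nonneg _) (by linarith) _
  have hccup : ∀ k : ℕ, k₁ ≤ k → ∀ q : Q, cc k q ≤ C ^ (k + 1) := by
    intro k hk q
    have h1 := hh k hk q
    have h2 := hh k hk q₀
    rw [hq₀] at h2
    refine (norm_sub_le _ _).trans ?_
    have h3 : (1 + |C₀|) ^ (k + 1) + (1 + |C₀|) ^ (k + 1) ≤ C ^ (k + 1) := by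
      rw [hC, mul_pow]
      have h4 : (2 : ℝ) ≤ 2 ^ (k + 1) := by
        calc (2 : ℝ) = 2 ^ 1 := (pow_one 2).symm
          _ ≤ 2 ^ (k + 1) := pow_le_pow_right₀ (by norm_num) (by omega)
      have h5 : 0 ≤ (1 + |C₀|) ^ (k + 1) := by positivity
      nlinarith
    linarith
  let N : ℕ → ℝ := fun k => ⨆ q : Q, cc k q
  have hbdd : ∀ k : ℕ, k₁ ≤ k → BddAbove (range (cc k)) := fun k hk =>
    ⟨C ^ (k + 1), by rintro _ ⟨q, rfl⟩; exact hccup k hk q⟩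
  have hN0 : ∀ k, 0 ≤ N k := fun k => Real.iSup_nonneg fun q => norm_nonneg _
  have hccN : ∀ k : ℕ, k₁ ≤ k → ∀ q : Q, cc k q ≤ N k := fun k hk q => le_ciSup (hbdd k hk) q
  have hlowN : ∃ᶠ k : ℕ in atTop, (c / 2) ^ (k + 1) ≤ N k := by
    refine (hlow.and_eventually (eventually_ge_atTop k₁)).mono ?_
    rintro k ⟨⟨x, hx, y, hy, hxy⟩, hk⟩
    obtain ⟨t, ht, z, hz, rfl⟩ := hK₀ x hx
    obtain ⟨t', ht', z', hz', rfl⟩ := hK₀ y hy
    have h1 := hccN k hk ⟨(t, z), ht, hz⟩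
    have h2 := hccN k hk ⟨(t', z'), ht', hz'⟩
    simp only [cc, pt, hpn] at h1 h2
    have h3 : h ((g ^ k) (t.1.symm z)) - h ((g ^ k) (t'.1.symm z')) =
      (h ((g ^ k) (t.1.symm z)) - h ((g ^ k) x₀)) -
        (h ((g ^ k) (t'.1.symm z')) - h ((g ^ k) x₀)) := by ring
    rw [h3] at hxy
    have h4 := hxy.trans (norm_sub_le _ _)
    have h5 : (c / 2) ^ (k + 1) ≤ c ^ (k + 1) / 2 := by
      rw [div_pow]
      have h6 : (2 : ℝ) ≤ 2 ^ (k + 1) := by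
        calc (2 : ℝ) = 2 ^ 1 := (pow_one 2).symm
          _ ≤ 2 ^ (k + 1) := pow_le_pow_right₀ (by norm_num) (by omega)
      exact div_le_div_of_nonneg_left (by positivity) (by norm_num) h6
    linarith
  have hNup : ∀ k, k₁ ≤ k → N k ≤ C ^ (k + 1) := fun k hk => ciSup_le fun q => hccup k hk q
  obtain ⟨D, hD1, hrec⟩ := exists_record hN0 hC1 hNup (half_pos hc) hlowN
  choose κ hκn hκ1 hκpos hκD using hrec
  have hD0 : 0 < D := lt_of_lt_of_le one_pos hD1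
  let S : ℕ → M → ℂ := fun n =>
    (((N (κ n) : ℝ) : ℂ)⁻¹) • (fun x => h ((g ^ (κ n : ℤ)) x) - h ((g ^ (κ n : ℤ)) x₀))
  have hSapp : ∀ n x, S n x = ((N (κ n) : ℝ) : ℂ)⁻¹ *
      (h ((g ^ (κ n : ℤ)) x) - h ((g ^ (κ n : ℤ)) x₀)) := fun n x => rfl
  have hS : ∀ n, HolSec E 0 ((g ^ (κ n : ℤ) : Equiv.Perm M) ⁻¹' V) (S n) := by
    intro n e he
    have h0 : HolSec E 0 V h := (holSec_zero_iff hV h).2 hs
    have h1 := (h0.pull' (hg.zpow (κ n : ℤ))) e he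
    have h2 := (h1.sub (differentiableOn_const (h ((g ^ (κ n : ℤ)) x₀)))).const_smul
      (((N (κ n) : ℝ) : ℂ)⁻¹)
    refine h2.congr fun z hz => ?_
    rw [pull_zero_weight, hSapp]
    simp only [Pi.smul_apply, Pi.sub_apply, smul_eq_mul]
    rw [pull_zero_weight, pull_zero_weight]
  have hS0 : ∀ n, S n x₀ = 0 := fun n => by rw [hSapp, sub_self, mul_zero]
  have hdiff : ∀ (n : ℕ) (j : ℤ) (q : Q), k₁ + j.natAbs ≤ n →
      ‖S n ((g ^ j) (pt q)) - S n ((g ^ j) x₀)‖ ≤ D ^ j.natAbs := by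
    intro n j q hn
    have h1 := hκn n
    obtain ⟨k, hk⟩ : ∃ k : ℕ, (κ n : ℤ) + j = k := ⟨((κ n : ℤ) + j).toNat, by omega⟩
    have hk1 : k₁ ≤ k := by omega
    rw [hSapp, hSapp, ← mul_sub, sub_sub_sub_cancel_right, norm_mul, norm_inv, Complex.norm_real,
      Real.norm_of_nonneg (hN0 _), inv_mul_le_iff₀ (hκpos n), hadd, hadd, hk]
    refine (hccN k hk1 q).trans ?_
    have h2 := hκD n k hk1
    have h3 : ((k : ℤ) - κ n).natAbs = j.natAbs := by omega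
    rwa [h3] at h2
  have horb : ∀ (n : ℕ) (j : ℤ), k₁ + j.natAbs ≤ n → ‖S n ((g ^ j) x₀)‖ ≤
      ∑ i ∈ Finset.range j.natAbs, (|D ^ (i : ℤ).natAbs| + |D ^ (-((i : ℤ) + 1)).natAbs|) := by
    intro n j hn
    refine orbit_bound' (b := fun i => D ^ i.natAbs) (hS0 n) j.natAbs (fun i hi => ?_) j le_rfl
    have h1 := hdiff n i q₁ (by omega)
    rw [hq₁] at h1
    have h2 : (g ^ i) (g x₀) = (g ^ (i + 1)) x₀ := by
      have := hadd i 1 x₀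
      rwa [zpow_one] at this
    rwa [h2] at h1
  have hsize : ∀ (n : ℕ) (j : ℤ) (q : Q), k₁ + j.natAbs ≤ n →
      ‖S n ((g ^ j) (pt q))‖ ≤ (4 * D) ^ (j.natAbs + 1) := by
    intro n j q hn
    have h1 := hdiff n j q hn
    have h2 := horb n j hn
    have h3 : S n ((g ^ j) (pt q)) = (S n ((g ^ j) (pt q)) - S n ((g ^ j) x₀)) + S n ((g ^ j) x₀) := by
      ring
    rw [h3]
    exact (norm_add_le _ _).trans ((add_le_add h1 h2).trans (sum_D_le hD1 _))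
  obtain ⟨τ, hτ1, hτ2, hτ3⟩ := montel_sec (hyperfilter ℕ) 0 hS (by
      intro x
      obtain ⟨K, hK, hxK⟩ : ∃ K : Set M, IsCompact K ∧ K ∈ 𝓝 x := by
        haveI : LocallyCompactSpace M := ChartedSpace.locallyCompactSpace E M
        obtain ⟨K, hK, hKx⟩ := exists_compact_mem_nhds x
        exact ⟨K, hK, hKx⟩
      refine ⟨K, hxK, ?_⟩
      obtain ⟨k₂, hk₂⟩ := eventually_atTop.1 (hfin K hK)
      filter_upwards [hUne (eventually_ge_atTop k₂)] with n hn x hx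
      rw [mem_preimage, hpn]
      exact hk₂ _ (hn.trans (hκn n)) x hx) (by
      intro y
      obtain ⟨k, x, hx, y', hy', hyb, rfl⟩ := f.cov y
      obtain ⟨e'', he'', hta, hsy, hso, hap⟩ := (hg.zpow k).exists_chart (f.atl x hx)
      have hsymm : (g ^ k).symm ((g ^ k) y') = y' := (g ^ k).symm_apply_apply y'
      have hmem : (g ^ k) y' ∈ e''.source := by
        rw [hso, mem_preimage, hsymm]; exact hy'
      refine ⟨e'', he'', hmem, e''.source ∩ e'' ⁻¹' interior x.2,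
        (e''.isOpen_inter_preimage isOpen_interior).mem_nhds ⟨hmem, ?_⟩,
        (4 * D) ^ (k.natAbs + 1), ?_⟩
      · rw [mem_preimage, hap, hsymm]; exact hyb
      · filter_upwards [hUne (eventually_ge_atTop (k₁ + k.natAbs))] with n hn w hw hw'
        rw [pull_zero_weight, hsy]
        exact hsize n k ⟨(x, e'' w), hx, interior_subset hw.2⟩ hn)
  have hτ0 : τ x₀ = 0 := by
    have h1 : Tendsto (fun n => S n x₀) (hyperfilter ℕ : Filter ℕ) (𝓝 (τ x₀)) := hτ2 x₀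
    have h2 : (fun n => S n x₀) = fun _ => 0 := funext hS0
    rw [h2] at h1
    exact tendsto_nhds_unique h1 tendsto_const_nhds
  refine ⟨τ, hτ1, hτ0, ?_, ?_⟩
  · by_contra hcon
    push Not at hcon
    have h1 : ∀ᶠ n in (hyperfilter ℕ : Filter ℕ), ∀ t ∈ f.T, ∀ z ∈ t.2,
        ‖pull E 0 t.1.symm (S n - τ) z‖ ≤ 1 / 4 :=
      (Finset.eventually_all f.T).2 fun t ht =>
        hτ3 t.1 (f.atl t ht) t.2 (f.sub t ht) (f.cpt t ht) _ (by norm_num)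
    obtain ⟨n, hn⟩ := h1.exists
    obtain ⟨q, hq⟩ := exists_lt_of_lt_ciSup (show N (κ n) / 2 < ⨆ q : Q, cc (κ n) q from
      half_lt_self (hκpos n))
    have h3 := hn _ q.2.1 _ q.2.2
    rw [pull_zero_weight, Pi.sub_apply, hcon, hτ0, sub_zero, hSapp, norm_mul, norm_inv,
      Complex.norm_real, Real.norm_of_nonneg (hN0 _), inv_mul_le_iff₀ (hκpos n)] at h3
    have h5 := hκpos n
    have h6 : cc (κ n) q ≤ N (κ n) * (1 / 4) := h3
    linarith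
  · intro t ht
    refine ⟨4 * D, fun k z hz => ?_⟩
    have h1 : Tendsto (fun n => ‖S n ((g ^ k) (t.1.symm z))‖) (hyperfilter ℕ : Filter ℕ)
      (𝓝 ‖τ ((g ^ k) (t.1.symm z))‖) := (hτ2 _).norm
    refine le_of_tendsto h1 ?_
    filter_upwards [hUne (eventually_ge_atTop (k₁ + k.natAbs))] with n hn
    exact hsize n k ⟨(t, z), ht, hz⟩ hn

end

end Vale.Agent.P267.H178
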