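import Mathlib
import Vale.Agent.P267.H178.Fun3

set_option linter.all false

open Filter Metric Set Topology
open scoped Manifold ContDiff

namespace Vale.Agent.P267.H178

theorem exists_growth {l : ℂ} (hl : l ≠ 0) (B : ℝ) :
    ∃ C : ℝ, 1 ≤ C ∧ ∀ k : ℤ, ‖l ^ k‖ * B ≤ C ^ (k.natAbs + 1) := by
  refine ⟨1 + |B| + ‖l‖ + ‖l‖⁻¹, ?_, fun k => ?_⟩
  · have := abs_nonneg B
    have := norm_nonneg l
    have := inv_nonneg.2 (norm_nonneg l)
    linarith
  have h1 := abs_nonneg B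
  have h2 := norm_nonneg l
  have h3 := inv_nonneg.2 (norm_nonneg l)
  have h4 : ‖l ^ k‖ ≤ (1 + |B| + ‖l‖ + ‖l‖⁻¹) ^ k.natAbs := by
    rcases Int.natAbs_eq k with h | h
    · conv_lhs => rw [h]
      rw [zpow_natCast, norm_pow]
      exact pow_le_pow_left₀ h2 (by linarith) _
    · conv_lhs => rw [h]
      rw [zpow_neg, zpow_natCast, norm_inv, norm_pow, ← inv_pow]
      exact pow_le_pow_left₀ h3 (by linarith) _
  rw [pow_succ]
  exact (mul_le_mul_of_nonneg_left (le_abs_self B) (norm_nonneg _)).trans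
    (mul_le_mul h4 (by linarith) h1 (by positivity))

theorem exists_lower {l : ℂ} (hl : l ≠ 0) {b : ℝ} (hb : 0 < b) :
    ∃ c > (0 : ℝ), ∀ k : ℕ, c ^ (k + 1) ≤ ‖l ^ k‖ * b := by
  refine ⟨min ‖l‖ b, lt_min (norm_pos_iff.2 hl) hb, fun k => ?_⟩
  have h0 : 0 < min ‖l‖ b := lt_min (norm_pos_iff.2 hl) hb
  rw [pow_succ, norm_pow]
  exact mul_le_mul (pow_le_pow_left₀ h0.le (min_le_left _ _) _) (min_le_right _ _) h0.le
    (by positivity)

section
variable {E : Type*} [NormedAddCommGroup E] [NormedSpace ℂ E]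
variable {M : Type*} [TopologicalSpace M] [ChartedSpace E M] [IsManifold 𝓘(ℂ, E) ω M]

theorem pull_zpow_of_eigen {g : Equiv.Perm M} (hg : Bih E g) {m : ℤ} {l : ℂ} (hl : l ≠ 0)
    {s : M → ℂ} (h : pull E m g s = l • s) (k : ℤ) :
    pull E m (g ^ k : Equiv.Perm M) s = l ^ k • s := by
  have hinv : pull E m (g⁻¹ : Equiv.Perm M) s = l⁻¹ • s := by
    have h1 : pull E m (g⁻¹ : Equiv.Perm M) (pull E m g s) = s := by
      rw [pull_pull m hg hg.inv, mul_inv_cancel, pull_one]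
    rw [h, pull_smul] at h1
    rw [← h1, smul_smul, inv_mul_cancel₀ hl, one_smul, h1]
  induction k using Int.induction_on with
  | zero => rw [zpow_zero, zpow_zero, pull_one, one_smul]
  | succ i ih =>
    rw [zpow_add_one, ← pull_pull m (hg.zpow _) hg, ih, pull_smul, h, smul_smul, zpow_add_one₀ hl]
  | pred i ih =>
    rw [zpow_sub_one, ← pull_pull m (hg.zpow _) hg.inv, ih, pull_smul, hinv, smul_smul,
      zpow_sub_one₀ hl]

theorem coef_zpow_of_eigen {g : Equiv.Perm M} (hg : Bih E g) {m : ℤ} {l : ℂ} (hl : l ≠ 0)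
    {s : M → ℂ} (h : pull E m g s = l • s) {e : OpenPartialHomeomorph M E}
    (he : e ∈ IsManifold.maximalAtlas 𝓘(ℂ, E) ω M) {z : E} (hz : z ∈ e.target) (k : ℤ) :
    pull E m (fun w => (g ^ k) (e.symm w)) s z = l ^ k * pull E m e.symm s z := by
  have h1 : (fun w => (g ^ k) (e.symm w)) = (g ^ k : Equiv.Perm M) ∘ e.symm := rfl
  rw [h1, pull_comp m ((hg.zpow k).mdiff _) (mdiff_symm he hz), pull_zpow_of_eigen hg hl h,
    pull_smul]
  rfl

theorem fun_zpow_of_eigen {g : Equiv.Perm M} {l : ℂ} (hl : l ≠ 0) {H : M → ℂ}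
    (h : ∀ x, H (g x) = l * H x) (k : ℤ) (x : M) : H ((g ^ k) x) = l ^ k * H x := by
  induction k using Int.induction_on generalizing x with
  | zero => simp
  | succ i ih =>
    have h1 : (g ^ ((i : ℤ) + 1)) x = (g ^ (i : ℤ)) (g x) := by rw [zpow_add, zpow_one]; rfl
    rw [h1, ih, h, zpow_add_one₀ hl]; ring
  | pred i ih =>
    have h1 : (g ^ (-(i : ℤ) - 1)) x = (g ^ (-(i : ℤ))) ((g⁻¹ : Equiv.Perm M) x) := by
      rw [sub_eq_add_neg, zpow_add, zpow_neg_one]; rfl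
    have h2 : H x = l * H ((g⁻¹ : Equiv.Perm M) x) := by
      rw [← h]
      congr 1
      exact (g.apply_symm_apply x).symm
    rw [h1, ih, h2, zpow_sub_one₀ hl]
    field_simp

end

section
variable {E : Type*} [NormedAddCommGroup E] [NormedSpace ℂ E] [FiniteDimensional ℂ E]
variable {X : Type*} [TopologicalSpace X] [ChartedSpace E X] [CompactSpace X]
variable {M : Type*} [TopologicalSpace M] [ChartedSpace E M] [IsManifold 𝓘(ℂ, E) ω M]

/-- a finite family of coordinate balls covering a compact set -/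
theorem exists_cover_family {K : Set M} (hK : IsCompact K) :
    ∃ T₀ : Finset (OpenPartialHomeomorph M E × Set E),
      (∀ t ∈ T₀, t.1 ∈ IsManifold.maximalAtlas 𝓘(ℂ, E) ω M ∧ t.2 ⊆ t.1.target ∧
        IsCompact t.2) ∧ ∀ x ∈ K, ∃ t ∈ T₀, ∃ z ∈ t.2, t.1.symm z = x := by
  classical
  haveI : ProperSpace E := FiniteDimensional.proper ℂ E
  have h1 : ∀ x : M, ∃ r > 0, closedBall (chartAt E x x) r ⊆ (chartAt E x).target := fun x =>
    Metric.nhds_basis_closedBall.mem_iff.1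
      ((chartAt E x).open_target.mem_nhds (mem_chart_target E x))
  choose r hr hsub using h1
  let V : M → Set M := fun x => (chartAt E x).source ∩ chartAt E x ⁻¹' ball (chartAt E x x) (r x)
  have hVo : ∀ x, IsOpen (V x) := fun x => (chartAt E x).isOpen_inter_preimage isOpen_ball
  have hVx : ∀ x, x ∈ V x := fun x => ⟨mem_chart_source E x, mem_ball_self (hr x)⟩
  obtain ⟨t, ht⟩ := hK.elim_finite_subcover V hVo (fun x _ => mem_iUnion.2 ⟨x, hVx x⟩)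
  refine ⟨t.image fun x => (chartAt E x, closedBall (chartAt E x x) (r x)), ?_, ?_⟩
  · intro t' ht'
    obtain ⟨x, -, rfl⟩ := Finset.mem_image.1 ht'
    exact ⟨IsManifold.chart_mem_maximalAtlas x, hsub x, isCompact_closedBall _ _⟩
  · intro x hx
    have h2 := ht hx
    simp only [mem_iUnion] at h2
    obtain ⟨y, hy, hxy⟩ := h2
    exact ⟨_, Finset.mem_image_of_mem _ hy, chartAt E y x, ball_subset_closedBall hxy.2,
      (chartAt E y).left_inv hxy.1⟩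

theorem sections_tfae (c : CyclicCover E X M) (m : ℤ) : List.TFAE [
    ∃ (l : ℂ) (s : M → ℂ), l ≠ 0 ∧ HolSec E m univ s ∧ s ≠ 0 ∧ pull E m c.g s = l • s,
    ∃ (V : Set M) (s : M → ℂ), EndSec E c.g m V s,
    ∃ (W : ℕ → Set M) (s : ℕ → M → ℂ) (x₀ : M), TameSec E c.g m W s ∧ ∀ n, 1 ≤ ‖s n x₀‖] := by
  classical
  have hg : Bih E c.g := c.holo
  have h12 : (∃ (l : ℂ) (s : M → ℂ), l ≠ 0 ∧ HolSec E m univ s ∧ s ≠ 0 ∧ pull E m c.g s = l • s) →
      ∃ (V : Set M) (s : M → ℂ), EndSec E c.g m V s := by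
    rintro ⟨l, s, hl, hs, hs0, heig⟩
    refine ⟨univ, s, isOpen_univ, hs, fun K _ => Eventually.of_forall fun k x _ => mem_univ _,
      ?_, ?_⟩
    · intro e he Z hZ hZc
      have hcont : ContinuousOn (fun z => ‖pull E m e.symm s z‖) Z := by
        have h1 := (hs e he).continuousOn
        rw [preimage_univ, inter_univ] at h1
        exact (h1.mono hZ).norm
      obtain ⟨B, hB⟩ := hZc.bddAbove_image hcont
      obtain ⟨C, hC1, hC⟩ := exists_growth hl B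
      refine ⟨C, fun k _ z hz => ?_⟩
      have h1 := coef_zpow_of_eigen hg hl heig he (hZ hz) (k : ℤ)
      simp only [zpow_natCast] at h1
      rw [h1, norm_mul]
      have h2 := hC k
      rw [zpow_natCast, Int.natAbs_natCast] at h2
      exact (mul_le_mul_of_nonneg_left (hB ⟨z, hz, rfl⟩) (norm_nonneg _)).trans h2
    · obtain ⟨x₀, hx₀⟩ : ∃ x₀, s x₀ ≠ 0 := by
        by_contra hcon
        push Not at hcon
        exact hs0 (funext hcon)
      have he := IsManifold.chart_mem_maximalAtlas (I := 𝓘(ℂ, E)) (n := ω) x₀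
      have hz := mem_chart_target E x₀
      have hb : 0 < ‖pull E m (chartAt E x₀).symm s (chartAt E x₀ x₀)‖ := by
        rw [norm_pos_iff]
        simp only [pull]
        rw [(chartAt E x₀).left_inv (mem_chart_source E x₀)]
        exact mul_ne_zero (zpow_ne_zero _ (jac_symm_ne he hz)) hx₀
      obtain ⟨b, hb0, hbk⟩ := exists_lower hl hb
      refine ⟨_, he, {chartAt E x₀ x₀}, singleton_subset_iff.2 hz, isCompact_singleton, b, hb0,
        Frequently.of_forall fun k => ⟨_, rfl, ?_⟩⟩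
      have h1 := coef_zpow_of_eigen hg hl heig he hz (k : ℤ)
      simp only [zpow_natCast] at h1
      rw [h1, norm_mul]
      exact hbk k
  have h21 : (∃ (V : Set M) (s : M → ℂ), EndSec E c.g m V s) →
      ∃ (l : ℂ) (s : M → ℂ), l ≠ 0 ∧ HolSec E m univ s ∧ s ≠ 0 ∧ pull E m c.g s = l • s := by
    rintro ⟨V, s, hV, hs, hfin, hup, e, he, Z, hZ, hZc, b, hb, hlow⟩
    obtain ⟨f, hf⟩ := c.exists_frame {(e, Z)} (by
      intro t ht
      rw [Finset.mem_singleton] at ht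
      subst ht
      exact ⟨he, hZ, hZc⟩)
    obtain ⟨τ, h1, h2, h3⟩ := EndSec.limit hg hV hs hfin hup f
      (hf (Finset.mem_singleton_self _)) hb hlow
    exact eigen_of_growth hg f m h1 h2 h3
  have h13 : (∃ (l : ℂ) (s : M → ℂ), l ≠ 0 ∧ HolSec E m univ s ∧ s ≠ 0 ∧ pull E m c.g s = l • s) →
      ∃ (W : ℕ → Set M) (s : ℕ → M → ℂ) (x₀ : M), TameSec E c.g m W s ∧ ∀ n, 1 ≤ ‖s n x₀‖ := by
    rintro ⟨l, s, hl, hs, hs0, heig⟩
    obtain ⟨x₀, hx₀⟩ : ∃ x₀, s x₀ ≠ 0 := by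
      by_contra hcon
      push Not at hcon
      exact hs0 (funext hcon)
    refine ⟨fun _ => univ, fun _ => (s x₀)⁻¹ • s, x₀, ⟨fun n => ⟨isOpen_univ, ?_⟩,
      fun K _ => Eventually.of_forall fun n => subset_univ _, ?_⟩, fun n => ?_⟩
    · exact (globalSec E M m).smul_mem _ hs
    · intro e he Z hZ hZc
      have hcont : ContinuousOn (fun z => ‖pull E m e.symm s z‖) Z := by
        have h1 := (hs e he).continuousOn
        rw [preimage_univ, inter_univ] at h1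
        exact (h1.mono hZ).norm
      obtain ⟨B, hB⟩ := hZc.bddAbove_image hcont
      obtain ⟨C, hC1, hC⟩ := exists_growth hl (‖(s x₀)⁻¹‖ * B)
      refine ⟨C, fun n k _ z hz => ?_⟩
      rw [pull_smul, Pi.smul_apply, coef_zpow_of_eigen hg hl heig he (hZ hz) k, norm_smul, norm_mul]
      have h2 := hC k
      have h3 := hB ⟨z, hz, rfl⟩
      have h4 : ‖(s x₀)⁻¹‖ * (‖l ^ k‖ * ‖pull E m e.symm s z‖) ≤ ‖l ^ k‖ * (‖(s x₀)⁻¹‖ * B) := by
        have h5 : ‖(s x₀)⁻¹‖ * (‖l ^ k‖ * ‖pull E m e.symm s z‖) =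
          (‖l ^ k‖ * ‖(s x₀)⁻¹‖) * ‖pull E m e.symm s z‖ := by ring
        rw [h5, ← mul_assoc]
        exact mul_le_mul_of_nonneg_left h3 (by positivity)
      exact h4.trans h2
    · simp only [Pi.smul_apply, smul_eq_mul]
      rw [inv_mul_cancel₀ hx₀, norm_one]
  have h31 : (∃ (W : ℕ → Set M) (s : ℕ → M → ℂ) (x₀ : M), TameSec E c.g m W s ∧
      ∀ n, 1 ≤ ‖s n x₀‖) →
      ∃ (l : ℂ) (s : M → ℂ), l ≠ 0 ∧ HolSec E m univ s ∧ s ≠ 0 ∧ pull E m c.g s = l • s := by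
    rintro ⟨W, s, x₀, hT, hx₀⟩
    obtain ⟨f, -⟩ := c.exists_frame ∅ (by simp)
    obtain ⟨τ, h1, h2, h3⟩ := hT.limit hg
    refine eigen_of_growth hg f m h1 ?_ fun t ht => h3 t.1 (f.atl t ht) t.2 (f.sub t ht) (f.cpt t ht)
    rintro rfl
    have h4 : Tendsto (fun n => ‖s n x₀‖) (hyperfilter ℕ : Filter ℕ) (𝓝 ‖(0 : M → ℂ) x₀‖) :=
      (h2 x₀).norm
    rw [Pi.zero_apply, norm_zero] at h4
    have h5 : (1 : ℝ) ≤ 0 := ge_of_tendsto' h4 hx₀
    linarith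
  tfae_have 1 → 2 := h12
  tfae_have 2 → 1 := h21
  tfae_have 1 → 3 := h13
  tfae_have 3 → 1 := h31
  tfae_finish

theorem functions_tfae [PreconnectedSpace M] (c : CyclicCover E X M) : List.TFAE [
    ∃ (l : ℂ) (H : M → ℂ), l ≠ 0 ∧ ‖l‖ ≠ 1 ∧ MDifferentiable 𝓘(ℂ, E) 𝓘(ℂ, ℂ) H ∧
      (∃ x y, H x ≠ H y) ∧ ∀ x, H (c.g x) = l * H x,
    ∃ (V : Set M) (h : M → ℂ), EndFun E c.g V h,
    ∃ (W : ℕ → Set M) (h : ℕ → M → ℂ) (x₀ x₁ : M), TameFun E c.g W h ∧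
      ∀ n, 1 ≤ ‖h n x₀ - h n x₁‖] := by
  classical
  have hg : Bih E c.g := c.holo
  have hfin : ∀ {H : M → ℂ} {l : ℂ} (K : Set M), IsCompact K → l ≠ 0 →
      MDifferentiable 𝓘(ℂ, E) 𝓘(ℂ, ℂ) H → (∀ x, H (c.g x) = l * H x) → ∃ C : ℝ, 1 ≤ C ∧
      ∀ (k : ℤ), ∀ x ∈ K, ‖H ((c.g ^ k) x)‖ ≤ C ^ (k.natAbs + 1) := by
    intro H l K hK hl hH heig
    obtain ⟨B, hB⟩ := hK.bddAbove_image (hH.continuous.norm.continuousOn (s := K))
    obtain ⟨C, hC1, hC⟩ := exists_growth hl B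
    refine ⟨C, hC1, fun k x hx => ?_⟩
    rw [fun_zpow_of_eigen hl heig, norm_mul]
    exact (mul_le_mul_of_nonneg_left (hB ⟨x, hx, rfl⟩) (norm_nonneg _)).trans (hC k)
  have h12 : (∃ (l : ℂ) (H : M → ℂ), l ≠ 0 ∧ ‖l‖ ≠ 1 ∧ MDifferentiable 𝓘(ℂ, E) 𝓘(ℂ, ℂ) H ∧
      (∃ x y, H x ≠ H y) ∧ ∀ x, H (c.g x) = l * H x) →
      ∃ (V : Set M) (h : M → ℂ), EndFun E c.g V h := by
    rintro ⟨l, H, hl, -, hH, ⟨x, y, hxy⟩, heig⟩
    refine ⟨univ, H, isOpen_univ, hH.mdifferentiableOn,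
      fun K _ => Eventually.of_forall fun k x _ => mem_univ _, ?_, ?_⟩
    · intro K hK
      obtain ⟨C, -, hC⟩ := hfin K hK hl hH heig
      refine ⟨C, fun k _ x hx => ?_⟩
      have h1 := hC k x hx
      simpa only [zpow_natCast, Int.natAbs_natCast] using h1
    · obtain ⟨b, hb0, hbk⟩ := exists_lower hl (norm_pos_iff.2 (sub_ne_zero.2 hxy))
      refine ⟨{x, y}, (toFinite {x, y}).isCompact, b, hb0, Frequently.of_forall fun k =>
        ⟨x, by simp, y, by simp, ?_⟩⟩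
      have h1 := fun_zpow_of_eigen hl heig (k : ℤ)
      simp only [zpow_natCast] at h1
      rw [h1, h1, ← mul_sub, norm_mul]
      exact hbk k
  have h21 : (∃ (V : Set M) (h : M → ℂ), EndFun E c.g V h) →
      (∃ (l : ℂ) (H : M → ℂ), l ≠ 0 ∧ ‖l‖ ≠ 1 ∧ MDifferentiable 𝓘(ℂ, E) 𝓘(ℂ, ℂ) H ∧
      (∃ x y, H x ≠ H y) ∧ ∀ x, H (c.g x) = l * H x) := by
    rintro ⟨V, h, hV, hs, hfinV, hup, K, hK, b, hb, hlow⟩
    obtain ⟨x₀, hx₀K⟩ : K.Nonempty := by
      obtain ⟨k, x, hx, -⟩ := hlow.exists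
      exact ⟨x, hx⟩
    obtain ⟨T₀, hT₀, hcov⟩ := exists_cover_family (E := E) (hK.insert (c.g x₀))
    obtain ⟨f, hf⟩ := c.exists_frame T₀ hT₀
    have hcov' : ∀ x ∈ insert (c.g x₀) K, ∃ t ∈ f.T, ∃ z ∈ t.2, t.1.symm z = x := by
      intro x hx
      obtain ⟨t, ht, z, hz, h⟩ := hcov x hx
      exact ⟨t, hf ht, z, hz, h⟩
    have hx₀ := hcov' x₀ (mem_insert_of_mem _ hx₀K)
    have hx₁ := hcov' (c.g x₀) (mem_insert _ _)
    obtain ⟨τ, h1, h2, h3, h4⟩ := EndFun.limit hg hV hs hfinV hup f hx₀ hx₁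
      (fun x hx => hcov' x (mem_insert_of_mem _ hx)) hb hlow
    obtain ⟨l, σ, a, hl, hσ, hσ0, hσne, haff⟩ := eigen_fun_of_growth hg f hx₀ hx₁ h1 h3 h4
    have hσ' : MDifferentiable 𝓘(ℂ, E) 𝓘(ℂ, ℂ) σ :=
      mdifferentiableOn_univ.1 ((holSec_zero_iff isOpen_univ σ).1 hσ)
    exact automorphic_of_affine f hl hσ' hσ0 hσne haff
  have h13 : (∃ (l : ℂ) (H : M → ℂ), l ≠ 0 ∧ ‖l‖ ≠ 1 ∧ MDifferentiable 𝓘(ℂ, E) 𝓘(ℂ, ℂ) H ∧
      (∃ x y, H x ≠ H y) ∧ ∀ x, H (c.g x) = l * H x) →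
      ∃ (W : ℕ → Set M) (h : ℕ → M → ℂ) (x₀ x₁ : M), TameFun E c.g W h ∧
        ∀ n, 1 ≤ ‖h n x₀ - h n x₁‖ := by
    rintro ⟨l, H, hl, -, hH, ⟨x, y, hxy⟩, heig⟩
    have hxy' : H x - H y ≠ 0 := sub_ne_zero.2 hxy
    refine ⟨fun _ => univ, fun _ => fun z => (H x - H y)⁻¹ * H z, x, y,
      ⟨fun n => ⟨isOpen_univ, ?_⟩, fun K _ => Eventually.of_forall fun n => subset_univ _, ?_⟩,
      fun n => ?_⟩
    · refine MDifferentiable.mdifferentiableOn ?_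
      have hd2 : Differentiable ℂ (fun w : ℂ => (H x - H y)⁻¹ * w) := by fun_prop
      intro z
      exact (hd2 (H z)).mdifferentiableAt.comp z (hH z)
    · intro K hK
      have heig' : ∀ z, (fun z => (H x - H y)⁻¹ * H z) (c.g z) =
          l * (fun z => (H x - H y)⁻¹ * H z) z := fun z => by
        simp only [heig]; ring
      have hd2 : Differentiable ℂ (fun w : ℂ => (H x - H y)⁻¹ * w) := by fun_prop
      obtain ⟨C, -, hC⟩ := hfin K hK hl
        (fun z => (hd2 (H z)).mdifferentiableAt.comp z (hH z)) heig'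
      exact ⟨C, fun n k _ z hz => hC k z hz⟩
    · simp only
      rw [← mul_sub, inv_mul_cancel₀ hxy', norm_one]
  have h31 : (∃ (W : ℕ → Set M) (h : ℕ → M → ℂ) (x₀ x₁ : M), TameFun E c.g W h ∧
        ∀ n, 1 ≤ ‖h n x₀ - h n x₁‖) →
      (∃ (l : ℂ) (H : M → ℂ), l ≠ 0 ∧ ‖l‖ ≠ 1 ∧ MDifferentiable 𝓘(ℂ, E) 𝓘(ℂ, ℂ) H ∧
      (∃ x y, H x ≠ H y) ∧ ∀ x, H (c.g x) = l * H x) := by
    rintro ⟨W, h, x₀, x₁, hT, hx⟩
    obtain ⟨τ, h1, h2, h3⟩ := hT.tameSec.limit hg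
    obtain ⟨T₀, hT₀, hcov⟩ := exists_cover_family (E := E)
      ((isCompact_singleton (x := x₀)).insert (c.g x₀))
    obtain ⟨f, hf⟩ := c.exists_frame T₀ hT₀
    have hcov' : ∀ x ∈ insert (c.g x₀) ({x₀} : Set M), ∃ t ∈ f.T, ∃ z ∈ t.2, t.1.symm z = x := by
      intro x hx
      obtain ⟨t, ht, z, hz, h⟩ := hcov x hx
      exact ⟨t, hf ht, z, hz, h⟩
    have hx₀ := hcov' x₀ (by simp)
    have hx₁ := hcov' (c.g x₀) (mem_insert _ _)
    have hne : ∃ x, τ x ≠ τ x₀ := by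
      refine ⟨x₁, fun heq => ?_⟩
      have h4 : Tendsto (fun n => ‖h n x₀ - h n x₁‖) (hyperfilter ℕ : Filter ℕ)
        (𝓝 ‖τ x₀ - τ x₁‖) := ((h2 x₀).sub (h2 x₁)).norm
      rw [heq, sub_self, norm_zero] at h4
      have h5 : (1 : ℝ) ≤ 0 := ge_of_tendsto' h4 hx
      linarith
    obtain ⟨l, σ, a, hl, hσ, hσ0, hσne, haff⟩ := eigen_fun_of_growth hg f hx₀ hx₁ h1 hne
      (fun t ht => by
        obtain ⟨C, hC⟩ := h3 t.1 (f.atl t ht) t.2 (f.sub t ht) (f.cpt t ht)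
        refine ⟨C, fun k z hz => ?_⟩
        have h4 := hC k z hz
        rwa [pull_zero_weight] at h4)
    have hσ' : MDifferentiable 𝓘(ℂ, E) 𝓘(ℂ, ℂ) σ :=
      mdifferentiableOn_univ.1 ((holSec_zero_iff isOpen_univ σ).1 hσ)
    exact automorphic_of_affine f hl hσ' hσ0 hσne haff
  tfae_have 1 → 2 := h12
  tfae_have 2 → 1 := h21
  tfae_have 1 → 3 := h13
  tfae_have 3 → 1 := h31
  tfae_finish

end

end Vale.Agent.P267.H178
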